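import Mathlib

/-! Actions of a free group with Følner sets, and their extensions by abelian cocycles. -/

set_option autoImplicit false

namespace Crest.Agent.R140

open Finset

/-- Følner sets for finitely many translations in an abelian group. -/
theorem abelian_folner {A : Type} [AddCommGroup A] [DecidableEq A] (B : Finset A) (η : ℝ)
    (hη : 0 < η) :
    ∃ Y : Finset A, Y.Nonempty ∧ ∀ b ∈ B, ((Y.filter (fun y => y + b ∉ Y)).card : ℝ) ≤ η * Y.card := by
  classical
  -- `Y n` = combinations of elements of `B` with coefficients at most `n`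
  let Y : ℕ → Finset A := fun n =>
    (Fintype.piFinset (fun _ : B => range (n + 1))).image (fun c : B → ℕ => ∑ b : B, c b • (b : A))
  have hcard : ∀ n, (Y n).card ≤ (n + 1) ^ B.card := by
    intro n
    refine card_image_le.trans ?_
    rw [Fintype.card_piFinset]; simp
  have hne : ∀ n, (Y n).Nonempty := by
    intro n
    refine ⟨_, mem_image.2 ⟨fun _ => 0, by simp, rfl⟩⟩
  have hsub : ∀ n, Y n ⊆ Y (n + 1) := by
    intro n y hy
    obtain ⟨c, hc, rfl⟩ := mem_image.1 hy
    refine mem_image.2 ⟨c, ?_, rfl⟩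
    rw [Fintype.mem_piFinset] at hc ⊢
    intro b; have := hc b; simp only [mem_range] at this ⊢; omega
  have hadd : ∀ n, ∀ b ∈ B, ∀ y ∈ Y n, y + b ∈ Y (n + 1) := by
    intro n b hb y hy
    obtain ⟨c, hc, rfl⟩ := mem_image.1 hy
    refine mem_image.2 ⟨fun b' => c b' + if b' = ⟨b, hb⟩ then 1 else 0, ?_, ?_⟩
    · rw [Fintype.mem_piFinset] at hc ⊢
      intro b'; have := hc b'; simp only [mem_range] at this ⊢; split_ifs <;> omega
    · simp only [add_smul, sum_add_distrib, ite_smul, one_smul, zero_smul]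
      simp
  have hex : ∃ n, ((Y (n + 1)).card : ℝ) ≤ (1 + η) * (Y n).card := by
    by_contra hcon
    push Not at hcon
    have hgrow : ∀ n, (1 + η) ^ n ≤ ((Y n).card : ℝ) := by
      intro n
      induction n with
      | zero => simpa using (card_pos.2 (hne 0))
      | succ n ih =>
        have := hcon n
        rw [pow_succ]; nlinarith
    have hlim := tendsto_pow_const_div_const_pow_of_one_lt B.card (r := 1 + η) (by linarith)
    have hlim2 : Filter.Tendsto (fun n : ℕ => (((n + 1 : ℕ) : ℝ) ^ B.card / (1 + η) ^ (n + 1)))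
        Filter.atTop (nhds 0) := hlim.comp (Filter.tendsto_add_atTop_nat 1)
    have hev := hlim2.eventually (gt_mem_nhds (show (0 : ℝ) < 1 / (1 + η) by positivity))
    obtain ⟨n, hn⟩ := hev.exists
    have h1 : (1 + η) ^ n ≤ ((n + 1 : ℕ) : ℝ) ^ B.card := by
      refine (hgrow n).trans ?_
      exact_mod_cast hcard n
    have hpos : 0 < (1 + η) ^ n := by positivity
    rw [div_lt_div_iff₀ (by positivity) (by positivity), pow_succ] at hn
    nlinarith
  obtain ⟨n, hn⟩ := hex
  refine ⟨Y n, hne n, fun b hb => ?_⟩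
  have h1 : ((Y n).filter (fun y => y + b ∉ Y n)).card ≤ (Y (n + 1) \ Y n).card := by
    apply card_le_card_of_injOn (fun y => y + b)
    · intro y hy
      have hy' := mem_filter.1 (mem_coe.1 hy)
      exact mem_coe.2 (mem_sdiff.2 ⟨hadd n b hb y hy'.1, hy'.2⟩)
    · intro y _ y' _ h; exact add_right_cancel h
  have h2 : (Y (n + 1) \ Y n).card + (Y n).card = (Y (n + 1)).card :=
    card_sdiff_add_card_eq_card (hsub n)
  have h3 : (((Y n).filter (fun y => y + b ∉ Y n)).card : ℝ) + (Y n).card ≤ (Y (n + 1)).card := by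
    exact_mod_cast (by omega)
  linarith

variable {S : Type}

/-- The group element of a letter. -/
def gl (σ : S × Bool) : FreeGroup S := FreeGroup.mk [σ]

/-- The inverse letter. -/
def inv (σ : S × Bool) : S × Bool := (σ.1, !σ.2)

theorem gl_true (s : S) : gl (s, true) = FreeGroup.of s := rfl

theorem gl_inv (σ : S × Bool) : gl (inv σ) = (gl σ)⁻¹ := by
  simp [gl, inv, FreeGroup.inv_mk, FreeGroup.invRev]

theorem gl_false (s : S) : gl (s, false) = (FreeGroup.of s)⁻¹ := gl_inv (s, true)

@[simp] theorem inv_inv' (σ : S × Bool) : inv (inv σ) = σ := by simp [inv]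

theorem mk_cons (σ : S × Bool) (L : List (S × Bool)) :
    FreeGroup.mk (σ :: L) = gl σ * FreeGroup.mk L := by
  simp [gl, FreeGroup.mul_mk]

/-- `U` is `ε`-invariant under every letter. -/
def IsFolner {V : Type} [DecidableEq V] (ρ : FreeGroup S →* Equiv.Perm V) (ε : ℝ)
    (U : Finset V) : Prop :=
  U.Nonempty ∧ ∀ σ : S × Bool, ((U.filter (fun v => ρ (gl σ) v ∉ U)).card : ℝ) ≤ ε * U.card

section ext

variable {V A : Type} [AddCommGroup A] (ρ : FreeGroup S →* Equiv.Perm V) (α : S → V → A)

/-- The permutation of `V × A` over the generator `s` with increment `α s`. -/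
def extPerm (s : S) : Equiv.Perm (V × A) where
  toFun q := (ρ (FreeGroup.of s) q.1, q.2 + α s q.1)
  invFun q := ((ρ (FreeGroup.of s))⁻¹ q.1, q.2 - α s ((ρ (FreeGroup.of s))⁻¹ q.1))
  left_inv q := by simp
  right_inv q := by simp

/-- The extended action. -/
def extHom : FreeGroup S →* Equiv.Perm (V × A) := FreeGroup.lift (extPerm ρ α)

/-- The increment of a letter. -/
def extInc (σ : S × Bool) (v : V) : A :=
  if σ.2 then α σ.1 v else - α σ.1 (ρ (gl σ) v)

theorem extHom_gl (σ : S × Bool) (q : V × A) :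
    extHom ρ α (gl σ) q = (ρ (gl σ) q.1, q.2 + extInc ρ α σ q.1) := by
  obtain ⟨s, b⟩ := σ
  cases b with
  | true => simp [gl_true, extHom, extInc, extPerm]
  | false =>
    rw [gl_false]
    simp only [extHom, map_inv, FreeGroup.lift_apply_of, extInc, gl_false]
    simp [extPerm, Equiv.Perm.inv_def, sub_eq_add_neg]

theorem ext_folner [Fintype S] [DecidableEq V] [DecidableEq A] (ε η : ℝ) (hη : 0 < η)
    (U : Finset V) (hU : IsFolner ρ ε U) :
    ∃ Y : Finset A, IsFolner (extHom ρ α) (ε + η) (U ×ˢ Y) := by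
  classical
  obtain ⟨Y, hY, hYB⟩ := abelian_folner
    ((U ×ˢ (univ : Finset (S × Bool))).image (fun q => extInc ρ α q.2 q.1)) η hη
  refine ⟨Y, hU.1.product hY, fun σ => ?_⟩
  have h1 : ((U ×ˢ Y).filter (fun q => extHom ρ α (gl σ) q ∉ U ×ˢ Y)) ⊆
      ((U.filter (fun v => ρ (gl σ) v ∉ U)) ×ˢ Y) ∪
      (U.biUnion (fun v => ({v} : Finset V) ×ˢ
        (Y.filter (fun y => y + extInc ρ α σ v ∉ Y)))) := by
    intro q hq
    obtain ⟨hq1, hq2⟩ := mem_filter.1 hq
    rw [extHom_gl, mem_product, not_and_or] at hq2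
    have hq3 := mem_product.1 hq1
    rcases hq2 with h | h
    · exact mem_union_left _ (mem_product.2 ⟨mem_filter.2 ⟨hq3.1, h⟩, hq3.2⟩)
    · exact mem_union_right _ (mem_biUnion.2 ⟨q.1, hq3.1,
        mem_product.2 ⟨mem_singleton_self _, mem_filter.2 ⟨hq3.2, h⟩⟩⟩)
  have h2 := (card_le_card h1).trans (card_union_le _ _)
  have h3 : ((U.biUnion (fun v => ({v} : Finset V) ×ˢ
        (Y.filter (fun y => y + extInc ρ α σ v ∉ Y)))).card : ℝ) ≤ U.card * (η * Y.card) := by
    refine le_trans (Nat.cast_le.2 card_biUnion_le) ?_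
    push_cast
    rw [← nsmul_eq_mul]
    apply sum_le_card_nsmul
    intro v hv
    rw [card_product, card_singleton, one_mul]
    exact hYB _ (mem_image.2 ⟨(v, σ), mem_product.2 ⟨hv, mem_univ _⟩, rfl⟩)
  have h4 := hU.2 σ
  have h5 : (((U ×ˢ Y).filter (fun q => extHom ρ α (gl σ) q ∉ U ×ˢ Y)).card : ℝ) ≤
      ((U.filter (fun v => ρ (gl σ) v ∉ U)).card : ℝ) * Y.card + U.card * (η * Y.card) := by
    refine le_trans (Nat.cast_le.2 h2) ?_
    push_cast
    rw [card_product]; push_cast
    linarith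
  rw [card_product]; push_cast
  have hY0 : (0 : ℝ) ≤ Y.card := by positivity
  nlinarith [mul_le_mul_of_nonneg_right h4 hY0]

end ext

end Crest.Agent.R140
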