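import Crest.Agent.R140.Ramsey
import Crest.Prelude.Def_MarkovType

/-! Finite James sequences in spaces of a given Markov type, and their stabilisation under
convex blocks. -/

set_option autoImplicit false

namespace Crest.Agent.R140

open Finset Crest.AnalysisR

universe u

/-- A James sequence of length `n` in some normed space of Markov type `p` with constant `K`. -/
structure JS (p K θ : ℝ) (n : ℕ) : Type (u + 1) where
  Y : Type u
  [ng : NormedAddCommGroup Y]
  [ns : NormedSpace ℝ Y]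
  mt : HasMarkovType Y p K
  y : ℕ → Y
  f : ℕ → Y →L[ℝ] ℝ
  hy : ∀ i, ‖y i‖ ≤ 1
  hf : ∀ i, ‖f i‖ ≤ 1
  hyf : ∀ κ < n, ∀ i < n, f κ (y i) = if κ ≤ i then θ else 0

attribute [instance] JS.ng JS.ns

/-- Alternating sum along an increasing `2k`-tuple. -/
def alt {Y : Type*} [AddCommGroup Y] {k : ℕ} (y : ℕ → Y) (s : Fin k ×ₗ Bool → ℕ) : Y :=
  ∑ l : Fin k, (y (s (toLex (l, false))) - y (s (toLex (l, true))))

/-- Alternating sum of blocks of length `T`. -/
def pat {Y : Type*} [AddCommGroup Y] {k T : ℕ} (y : ℕ → Y)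
    (t : (Fin k ×ₗ Bool) ×ₗ Fin T → ℕ) : Y :=
  ∑ j : Fin T, alt y (fun q => t (toLex (q, j)))

variable {p K θ : ℝ}

/-- All alternating sums with `k` pairs have norm at most `r`. -/
def AltLe {n : ℕ} (J : JS.{u} p K θ n) (k : ℕ) (r : ℝ) : Prop :=
  ∀ s : Fin k ×ₗ Bool → ℕ, StrictMono s → (∀ q, s q < n) → ‖alt J.y s‖ ≤ r

theorem blocks (k : ℕ) (r : ℝ) (hup : ∀ n, ∃ J : JS.{u} p K θ n, AltLe J k r)
    (hdown : ¬ ∀ n, ∃ J : JS.{u} p K θ n, AltLe J k (r / 2)) (T : ℕ) (hT : 1 ≤ T) (n : ℕ) :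
    ∃ J : JS.{u} p K θ n, AltLe J k r ∧
      ∀ t : (Fin k ×ₗ Bool) ×ₗ Fin T → ℕ, StrictMono t → (∀ q, t q < n) →
        T * r / 2 ≤ ‖pat J.y t‖ := by
  push Not at hdown
  obtain ⟨n₀, hn₀⟩ := hdown
  obtain ⟨N, hN⟩ := ramsey_tuples ((Fin k ×ₗ Bool) ×ₗ Fin T) (n + n₀ * T)
  obtain ⟨J, hJ⟩ := hup N
  obtain ⟨h, hmono, hlt, hc⟩ := hN (fun t => T * r / 2 ≤ ‖pat J.y t‖)
  have hle : ∀ i < n + n₀ * T, ∀ j < n + n₀ * T, (h i ≤ h j ↔ i ≤ j) := by
    intro i hi j hj
    constructor
    · intro hij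
      by_contra hcon
      exact absurd (hmono j i (by omega) hi) (by omega)
    · intro hij
      rcases hij.lt_or_eq with h1 | h1
      · exact (hmono i j h1 hj).le
      · rw [h1]
  have hT0 : (0 : ℝ) < T := by exact_mod_cast hT
  rcases hc with hc | hc
  · refine ⟨JS.mk J.Y J.mt (J.y ∘ h) (J.f ∘ h) (fun i => J.hy _) (fun i => J.hf _) ?_, ?_, ?_⟩
    · intro κ hκ i hi
      simp only [Function.comp_apply]
      rw [J.hyf _ (hlt κ (by omega)) _ (hlt i (by omega))]
      simp only [hle κ (by omega) i (by omega)]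
    · intro s hs hsn
      exact hJ (h ∘ s) (fun q q' hq => hmono _ _ (hs hq) (by have := hsn q'; omega))
        (fun q => hlt _ (by have := hsn q; omega))
    · intro t ht htn
      exact hc t ht (fun q => by have := htn q; omega)
  · exfalso
    have hidx : ∀ i < n₀, ∀ j < T, i * T + j < n + n₀ * T := by
      intro i hi j hj
      have : (i + 1) * T ≤ n₀ * T := Nat.mul_le_mul_right T hi
      nlinarith
    refine hn₀ (JS.mk J.Y J.mt (fun i => (T : ℝ)⁻¹ • ∑ j : Fin T, J.y (h (i * T + j)))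
      (fun κ => J.f (h (κ * T))) ?_ (fun i => J.hf _) ?_) ?_
    · intro i
      rw [norm_smul, norm_inv, Real.norm_natCast, inv_mul_le_iff₀ hT0]
      refine (norm_sum_le _ _).trans ?_
      refine (sum_le_card_nsmul _ _ 1 fun j _ => J.hy _).trans (by simp)
    · intro κ hκ i hi
      rw [map_smul, map_sum]
      have : ∀ j : Fin T, J.f (h (κ * T)) (J.y (h (i * T + j))) = if κ ≤ i then θ else 0 := by
        intro j
        have h1 := hidx κ hκ 0 hT
        rw [add_zero] at h1
        rw [J.hyf _ (hlt _ h1) _ (hlt _ (hidx i hi j j.2))]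
        have h2 : κ * T ≤ i * T + j ↔ κ ≤ i := by
          constructor
          · intro h3
            by_contra h4
            have h5 : (i + 1) * T ≤ κ * T := Nat.mul_le_mul_right T (by omega)
            have := j.2
            nlinarith
          · intro h3
            have := Nat.mul_le_mul_right T h3
            omega
        simp only [hle _ h1 _ (hidx i hi j j.2), h2]
      simp only [this, sum_const, card_univ, Fintype.card_fin, nsmul_eq_mul, smul_eq_mul]
      field_simp
    · intro s hs hsn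
      let t : (Fin k ×ₗ Bool) ×ₗ Fin T → ℕ := fun q => s (ofLex q).1 * T + (ofLex q).2
      have ht : StrictMono t := by
        intro q q' hq
        rcases Prod.Lex.lt_iff.1 hq with h1 | ⟨h1, h2⟩
        · have h3 : (s (ofLex q).1 + 1) * T ≤ s (ofLex q').1 * T := Nat.mul_le_mul_right T (hs h1)
          have := (ofLex q).2.2
          simp only [t]; nlinarith
        · simp only [t, h1]
          exact Nat.add_lt_add_left h2 _
      have h4 := hc t ht (fun q => hidx _ (hsn _) _ (ofLex q).2.2)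
      push Not at h4
      have h5 : alt (fun i => (T : ℝ)⁻¹ • ∑ j : Fin T, J.y (h (i * T + j))) s =
          (T : ℝ)⁻¹ • pat J.y (h ∘ t) := by
        simp only [alt, pat, ← smul_sub, ← smul_sum, ← sum_sub_distrib]
        rw [sum_comm]
        rfl
      change ‖alt (fun i => (T : ℝ)⁻¹ • ∑ j : Fin T, J.y (h (i * T + j))) s‖ ≤ r / 2
      rw [h5, norm_smul, norm_inv, Real.norm_natCast, inv_mul_le_iff₀ hT0]
      linarith

theorem alt_bound {n : ℕ} (J : JS.{u} p K θ n) {k : ℕ} {r : ℝ} (hJ : AltLe J k r) (a b : ℕ → ℕ)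
    (h1 : ∀ l < k, a l < b l) (h2 : ∀ l l', l < l' → l' < k → b l < a l') (h3 : ∀ l < k, b l < n) :
    ‖∑ l ∈ range k, (J.y (a l) - J.y (b l))‖ ≤ r := by
  let s : Fin k ×ₗ Bool → ℕ := fun q => if (ofLex q).2 then b (ofLex q).1 else a (ofLex q).1
  have hab : ∀ q : Fin k ×ₗ Bool, a (ofLex q).1 ≤ s q ∧ s q ≤ b (ofLex q).1 := by
    intro q
    have := h1 _ (ofLex q).1.2
    simp only [s]; split_ifs <;> omega
  have hs : StrictMono s := by
    intro q q' hq
    rcases Prod.Lex.lt_iff.1 hq with h4 | ⟨h4, h5⟩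
    · have := h2 _ _ h4 (ofLex q').1.2
      have := (hab q).2
      have := (hab q').1
      omega
    · rw [Bool.lt_iff] at h5
      simp only [s, h5.1, h5.2, h4]
      exact h1 _ (ofLex q').1.2
  have := hJ s hs (fun q => lt_of_le_of_lt (hab q).2 (h3 _ (ofLex q).1.2))
  rw [← Fin.sum_univ_eq_sum_range (fun l => J.y (a l) - J.y (b l))]
  exact this

theorem altLe_add {n : ℕ} (J : JS.{u} p K θ n) {k : ℕ} {r : ℝ} (hJ : AltLe J k r) (e : ℕ) :
    AltLe J (k + e) (r + 2 * e) := by
  intro s hs hsn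
  simp only [alt]
  rw [Fin.sum_univ_add]
  refine (norm_add_le _ _).trans (add_le_add ?_ ?_)
  · refine hJ (fun q => s (toLex (Fin.castAdd e (ofLex q).1, (ofLex q).2))) ?_ (fun q => hsn _)
    intro q q' hq
    apply hs
    rw [Prod.Lex.toLex_lt_toLex]
    rcases Prod.Lex.lt_iff.1 hq with h4 | ⟨h4, h5⟩
    · exact Or.inl h4
    · exact Or.inr ⟨by simp [h4], h5⟩
  · refine (norm_sum_le _ _).trans ?_
    refine (sum_le_card_nsmul _ _ 2 fun j _ => ?_).trans (by simp [mul_comm])
    refine (norm_sub_le _ _).trans ?_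
    linarith [J.hy (s (toLex (Fin.natAdd k j, false))), J.hy (s (toLex (Fin.natAdd k j, true)))]

theorem altLe_zero {n : ℕ} (J : JS.{u} p K θ n) : AltLe J 0 0 := by
  intro s _ _; simp [alt]

theorem theta_le {k : ℕ} (hk : 1 ≤ k) (J : JS.{u} p K θ (2 * k + 1)) {r : ℝ} (hJ : AltLe J k r) :
    θ ≤ 2 * r := by
  have h := alt_bound J hJ (fun l => 2 * l) (fun l => 2 * l + 1) (fun l _ => by omega)
    (fun l l' h _ => by omega) (fun l h => by omega)
  set D := ∑ l ∈ range k, (J.y (2 * l) - J.y (2 * l + 1)) with hD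
  have h1 : J.f 1 D = -θ := by
    rw [hD, map_sum]
    rw [sum_eq_single 0]
    · rw [map_sub, J.hyf 1 (by omega) _ (by omega), J.hyf 1 (by omega) _ (by omega)]; simp
    · intro l hl hl0
      have := mem_range.1 hl
      rw [map_sub, J.hyf 1 (by omega) _ (by omega), J.hyf 1 (by omega) _ (by omega),
        if_pos (by omega), if_pos (by omega), sub_self]
    · intro h; exact absurd (mem_range.2 hk) h
  have h2 := (J.f 1).le_of_opNorm_le (J.hf 1) D
  rw [h1, norm_neg, Real.norm_eq_abs] at h2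
  have := le_abs_self θ
  have := norm_nonneg D
  linarith

end Crest.Agent.R140
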