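import Crest.Agent.R140.OrdExt
import Crest.Prelude.Def_MarkovType

/-! The reversible chain on a Følner set: a random letter is applied when it keeps the state in
the set. Markov type bounds the displacement along reduced words. -/

set_option autoImplicit false

namespace Crest.Agent.R140

open Finset Crest.AnalysisR

variable {S : Type}

/-- The product of the first `j` letters, the first letter acting first. -/
def pre (c : ℕ → S × Bool) : ℕ → FreeGroup S
  | 0 => 1
  | j + 1 => gl (c j) * pre c j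

section chain

variable {V : Type} [DecidableEq V] (ρ : FreeGroup S →* Equiv.Perm V) (U : Finset V)

/-- One step of the chain with a given letter. -/
def step (σ : S × Bool) (u : U) : U :=
  if h : ρ (gl σ) u ∈ U then ⟨_, h⟩ else u

/-- The state after `j` steps. -/
def walk (c : ℕ → S × Bool) : ℕ → U → U
  | 0, u => u
  | j + 1, u => step ρ U (c j) (walk c j u)

theorem walk_congr (c c' : ℕ → S × Bool) (t : ℕ) (h : ∀ j < t, c j = c' j) (u : U) :
    walk ρ U c t u = walk ρ U c' t u := by
  induction t with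
  | zero => rfl
  | succ t ih =>
    simp only [walk]
    rw [h t (Nat.lt_succ_self t), ih (fun j hj => h j (by omega))]

theorem walk_eq (c : ℕ → S × Bool) (t : ℕ) (u : U) (h : ∀ j ≤ t, ρ (pre c j) u ∈ U) :
    (walk ρ U c t u : V) = ρ (pre c t) u := by
  induction t with
  | zero => simp [walk, pre]
  | succ t ih =>
    have h1 := ih (fun j hj => h j (by omega))
    have h2 := h (t + 1) le_rfl
    simp only [pre, map_mul, Equiv.Perm.mul_apply] at h2
    simp only [walk, step, h1, dif_pos h2, pre, map_mul, Equiv.Perm.mul_apply]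

theorem step_symm (σ : S × Bool) (i j : U) (hij : i ≠ j) (h : step ρ U σ i = j) :
    step ρ U (inv σ) j = i := by
  unfold step at h
  split_ifs at h with h1
  · subst h
    have h2 : ρ (gl (inv σ)) (ρ (gl σ) i) ∈ U := by rw [rho_inv_apply]; exact i.2
    unfold step
    rw [dif_pos h2]
    exact Subtype.ext (rho_inv_apply ρ σ i)
  · exact absurd h hij

variable [Fintype S]

/-- The transition matrix. -/
noncomputable def trans : Matrix U U ℝ := fun i j =>
  (Fintype.card (S × Bool) : ℝ)⁻¹ * ∑ σ : S × Bool, if step ρ U σ i = j then 1 else 0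

theorem trans_sum (h : U → ℝ) (i : U) : ∑ j, trans ρ U i j * h j =
    (Fintype.card (S × Bool) : ℝ)⁻¹ * ∑ σ : S × Bool, h (step ρ U σ i) := by
  simp only [trans, mul_assoc, ← mul_sum, sum_mul]
  rw [sum_comm]
  congr 1
  refine sum_congr rfl fun σ _ => ?_
  simp

theorem trans_symm (i j : U) : trans ρ U i j = trans ρ U j i := by
  by_cases hij : i = j
  · rw [hij]
  simp only [trans]
  congr 1
  let e : S × Bool ≃ S × Bool := ⟨inv, inv, inv_inv', inv_inv'⟩
  refine Fintype.sum_equiv e _ _ fun σ => ?_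
  have : step ρ U σ i = j ↔ step ρ U (e σ) j = i := by
    constructor
    · exact step_symm ρ U σ i j hij
    · intro h
      have := step_symm ρ U (inv σ) j i (Ne.symm hij) h
      rwa [inv_inv'] at this
  simp only [this]

/-- A finite word as a sequence of letters. -/
def extw [Inhabited S] {t : ℕ} (w : Fin t → S × Bool) : ℕ → S × Bool :=
  fun n => if h : n < t then w ⟨n, h⟩ else default

theorem trans_pow_sum [Inhabited S] (t : ℕ) (h : U → ℝ) (i : U) :
    ∑ j, (trans ρ U ^ t) i j * h j = ((Fintype.card (S × Bool) : ℝ)⁻¹) ^ t *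
      ∑ w : Fin t → S × Bool, h (walk ρ U (extw w) t i) := by
  induction t generalizing h with
  | zero => simp [walk, Matrix.one_apply]
  | succ t ih =>
    have h1 : ∑ j, (trans ρ U ^ (t + 1)) i j * h j =
        ∑ k, (trans ρ U ^ t) i k * ∑ j, trans ρ U k j * h j := by
      simp only [pow_succ, Matrix.mul_apply, sum_mul, mul_sum, mul_assoc]
      exact sum_comm
    rw [h1, ih]
    simp only [trans_sum, ← mul_sum]
    rw [pow_succ, mul_assoc]
    congr 2
    rw [sum_comm, ← Fintype.sum_prod_type']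
    refine Fintype.sum_equiv (Fin.snocEquiv (fun _ => S × Bool)) _ _ ?_
    rintro ⟨σ, w⟩
    simp only [walk]
    congr 2
    · simp [extw, Fin.snocEquiv, Fin.snoc]
    · apply walk_congr
      intro j hj
      simp [extw, Fin.snocEquiv, Fin.snoc, hj, Nat.lt_succ_of_lt hj, Fin.castLT]

theorem count_back [Inhabited S] [DecidableEq S] (T j : ℕ) :
    (((univ : Finset (Fin T → S × Bool)).filter
      (fun w => j + 1 < T ∧ extw w (j + 1) = inv (extw w j))).card : ℝ) *
      Fintype.card (S × Bool) ≤ (Fintype.card (S × Bool) : ℝ) ^ T := by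
  by_cases hj : j + 1 < T
  · have h1 : (((univ : Finset (Fin T → S × Bool)).filter
        (fun w => j + 1 < T ∧ extw w (j + 1) = inv (extw w j))) ×ˢ
          (univ : Finset (S × Bool))).card ≤ (univ : Finset (Fin T → S × Bool)).card := by
      apply card_le_card_of_injOn (fun q => Function.update q.1 ⟨j + 1, hj⟩ q.2)
      · intro q _; simp
      · rintro ⟨w, σ⟩ hq ⟨w', σ'⟩ hq' h
        have hq1 := (mem_filter.1 (mem_product.1 (mem_coe.1 hq)).1).2.2
        have hq2 := (mem_filter.1 (mem_product.1 (mem_coe.1 hq')).1).2.2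
        have hj' : j < T := by omega
        simp only [extw, dif_pos hj, dif_pos hj'] at hq1 hq2
        have h2 : ∀ i : Fin T, i ≠ ⟨j + 1, hj⟩ → w i = w' i := by
          intro i hi
          have := congrFun h i
          simpa [Function.update_of_ne hi] using this
        have h3 : σ = σ' := by simpa using congrFun h ⟨j + 1, hj⟩
        have h4 : w = w' := by
          funext i
          by_cases hi : i = ⟨j + 1, hj⟩
          · rw [hi, hq1, hq2, h2 ⟨j, hj'⟩ (by simp)]
          · exact h2 i hi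
        rw [h3, h4]
    rw [card_product, card_univ, card_univ, Fintype.card_fun, Fintype.card_fin] at h1
    exact_mod_cast h1
  · simp [hj]

omit [Fintype S] in
theorem count_exit (ε : ℝ) (hU : IsFolner ρ ε U) (c : ℕ → S × Bool) (j : ℕ) :
    (((univ : Finset U).filter
      (fun i : U => ρ (pre c j) i ∈ U ∧ ρ (pre c (j + 1)) i ∉ U)).card : ℝ) ≤ ε * U.card := by
  refine le_trans (Nat.cast_le.2 ?_) (hU.2 (c j))
  apply card_le_card_of_injOn (fun i : U => ρ (pre c j) i)
  · intro i hi
    have h := (mem_filter.1 (mem_coe.1 hi)).2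
    simp only [pre, map_mul, Equiv.Perm.mul_apply] at h
    exact mem_coe.2 (mem_filter.2 h)
  · intro i _ i' _ h
    exact Subtype.ext ((ρ (pre c j)).injective h)

theorem chain_bound [Inhabited S] [DecidableEq S] {Y : Type*} [NormedAddCommGroup Y] {p K : ℝ}
    (hp : 0 < p) (hY : HasMarkovType Y p K) (hK : 0 < K) (ε : ℝ) (hU : IsFolner ρ ε U) (f : V → Y)
    (T : ℕ) (hT : 1 ≤ T) (M m : ℝ) (hM : 0 ≤ M) (hm : 0 ≤ m)
    (h1 : ∀ σ v, v ∈ U → ρ (gl σ) v ∈ U → ‖f (ρ (gl σ) v) - f v‖ ≤ M)
    (h2 : ∀ (c : ℕ → S × Bool) v, (∀ j, j + 1 < T → c (j + 1) ≠ inv (c j)) →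
      (∀ j ≤ T, ρ (pre c j) v ∈ U) → m ≤ ‖f (ρ (pre c T) v) - f v‖) :
    (1 - T / Fintype.card (S × Bool) - T * ε) * m ^ p ≤ K ^ p * T * M ^ p := by
  classical
  set N : ℝ := (Fintype.card (S × Bool) : ℝ) with hN
  have hN0 : 0 < N := by rw [hN]; exact_mod_cast Fintype.card_pos
  have hU0 : (0 : ℝ) < U.card := by exact_mod_cast card_pos.2 hU.1
  have key := hY U (fun _ => (U.card : ℝ)⁻¹) (trans ρ U) (fun _ => by positivity)
    (by simp [hU0.ne'])
    (fun i j => mul_nonneg (by positivity) (sum_nonneg fun σ _ => by split_ifs <;> norm_num))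
    (fun i => by
      have := trans_sum ρ U (fun _ => 1) i
      simp only [mul_one] at this
      rw [this, ← hN]; simp only [sum_const, card_univ, nsmul_eq_mul, mul_one]
      exact inv_mul_cancel₀ hN0.ne')
    (fun i j => by rw [trans_symm]) (fun u => f u) T hT
  have hR : ∑ i : U, ∑ j : U, (U.card : ℝ)⁻¹ * trans ρ U i j * ‖f j - f i‖ ^ p ≤ M ^ p := by
    have : ∀ i : U, ∑ j : U, (U.card : ℝ)⁻¹ * trans ρ U i j * ‖f j - f i‖ ^ p ≤
        (U.card : ℝ)⁻¹ * M ^ p := by
      intro i
      simp only [mul_assoc, ← mul_sum]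
      refine mul_le_mul_of_nonneg_left ?_ (by positivity)
      rw [trans_sum ρ U (fun j : U => ‖f j - f i‖ ^ p), ← hN, inv_mul_le_iff₀ hN0, hN,
        ← nsmul_eq_mul, ← card_univ]
      apply sum_le_card_nsmul
      intro σ _
      apply Real.rpow_le_rpow (norm_nonneg _) _ hp.le
      unfold step
      split_ifs with h
      · exact h1 σ i i.2 h
      · simpa using hM
    refine (sum_le_sum fun i _ => this i).trans ?_
    simp [hU0.ne']
  have hmp : 0 ≤ m ^ p := Real.rpow_nonneg hm p
  have hpt : ∀ (i : U) (w : Fin T → S × Bool),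
      (1 - (∑ j ∈ range T, if j + 1 < T ∧ extw w (j + 1) = inv (extw w j) then (1 : ℝ) else 0) -
        (∑ j ∈ range T, if ρ (pre (extw w) j) i ∈ U ∧ ρ (pre (extw w) (j + 1)) i ∉ U
          then (1 : ℝ) else 0)) * m ^ p ≤ ‖f (walk ρ U (extw w) T i) - f i‖ ^ p := by
    intro i w
    have hA : (0 : ℝ) ≤ ∑ j ∈ range T,
        if j + 1 < T ∧ extw w (j + 1) = inv (extw w j) then (1 : ℝ) else 0 :=
      sum_nonneg fun j _ => by split_ifs <;> norm_num
    have hB : (0 : ℝ) ≤ ∑ j ∈ range T,
        if ρ (pre (extw w) j) i ∈ U ∧ ρ (pre (extw w) (j + 1)) i ∉ U then (1 : ℝ) else 0 :=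
      sum_nonneg fun j _ => by split_ifs <;> norm_num
    have hnn : 0 ≤ ‖f (walk ρ U (extw w) T i) - f i‖ ^ p := Real.rpow_nonneg (norm_nonneg _) p
    by_cases ha : ∃ j, j + 1 < T ∧ extw w (j + 1) = inv (extw w j)
    · obtain ⟨j, hj⟩ := ha
      have : (1 : ℝ) ≤ ∑ j ∈ range T,
          if j + 1 < T ∧ extw w (j + 1) = inv (extw w j) then (1 : ℝ) else 0 := by
        refine le_trans ?_ (single_le_sum (f := fun j =>
          if j + 1 < T ∧ extw w (j + 1) = inv (extw w j) then (1 : ℝ) else 0)
          (fun j _ => by split_ifs <;> norm_num) (mem_range.2 (show j < T by omega)))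
        simp [hj]
      nlinarith
    by_cases hb : ∃ j < T, ρ (pre (extw w) j) i ∈ U ∧ ρ (pre (extw w) (j + 1)) i ∉ U
    · obtain ⟨j, hj, hj'⟩ := hb
      have : (1 : ℝ) ≤ ∑ j ∈ range T,
          if ρ (pre (extw w) j) i ∈ U ∧ ρ (pre (extw w) (j + 1)) i ∉ U then (1 : ℝ) else 0 := by
        refine le_trans ?_ (single_le_sum (f := fun j =>
          if ρ (pre (extw w) j) i ∈ U ∧ ρ (pre (extw w) (j + 1)) i ∉ U then (1 : ℝ) else 0)
          (fun j _ => by split_ifs <;> norm_num) (mem_range.2 hj))
        simp [hj']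
      nlinarith
    push Not at ha hb
    have hin : ∀ j ≤ T, ρ (pre (extw w) j) i ∈ U := by
      intro j
      induction j with
      | zero => intro _; simp [pre]
      | succ j ih => intro hj; exact hb j (by omega) (ih (by omega))
    have h3 := h2 (extw w) i ha hin
    rw [walk_eq ρ U _ T i hin]
    have h4 := Real.rpow_le_rpow hm h3 hp.le
    nlinarith
  have hL : (1 - T / N - T * ε) * m ^ p ≤
      ∑ i : U, ∑ j : U, (U.card : ℝ)⁻¹ * (trans ρ U ^ T) i j * ‖f j - f i‖ ^ p := by
    have e1 : ∑ i : U, ∑ j : U, (U.card : ℝ)⁻¹ * (trans ρ U ^ T) i j * ‖f j - f i‖ ^ p =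
        (U.card : ℝ)⁻¹ * N⁻¹ ^ T * ∑ i : U, ∑ w : Fin T → S × Bool,
          ‖f (walk ρ U (extw w) T i) - f i‖ ^ p := by
      rw [mul_assoc, mul_sum, mul_sum]
      refine sum_congr rfl fun i _ => ?_
      rw [← trans_pow_sum ρ U T (fun j : U => ‖f j - f i‖ ^ p) i, mul_sum]
      simp only [mul_assoc]
    rw [e1]
    have e2 := sum_le_sum (s := (univ : Finset U)) fun i _ =>
      sum_le_sum (s := (univ : Finset (Fin T → S × Bool))) fun w _ => hpt i w
    refine le_trans ?_ (mul_le_mul_of_nonneg_left e2 (by positivity))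
    simp only [← sum_mul, sum_sub_distrib]
    rw [← mul_assoc]
    refine mul_le_mul_of_nonneg_right ?_ hmp
    have b1 : ∑ i : U, ∑ w : Fin T → S × Bool, ∑ j ∈ range T,
        (if j + 1 < T ∧ extw w (j + 1) = inv (extw w j) then (1 : ℝ) else 0) ≤
        U.card * (T * (N ^ T / N)) := by
      rw [← Fintype.card_coe, ← nsmul_eq_mul, ← card_univ]
      apply sum_le_card_nsmul
      intro i _
      rw [sum_comm]
      refine (sum_le_card_nsmul _ _ (N ^ T / N) fun j _ => ?_).trans (by simp)
      rw [sum_boole, le_div_iff₀ hN0]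
      exact count_back T j
    have b2 : ∑ i : U, ∑ w : Fin T → S × Bool, ∑ j ∈ range T,
        (if ρ (pre (extw w) j) i ∈ U ∧ ρ (pre (extw w) (j + 1)) i ∉ U then (1 : ℝ) else 0) ≤
        N ^ T * (T * (ε * U.card)) := by
      rw [sum_comm]
      have : N ^ T = ((univ : Finset (Fin T → S × Bool)).card : ℝ) := by
        rw [card_univ, Fintype.card_fun, Fintype.card_fin, hN]; push_cast; rfl
      rw [this, ← nsmul_eq_mul]
      apply sum_le_card_nsmul
      intro w _
      rw [sum_comm]
      refine (sum_le_card_nsmul _ _ (ε * U.card) fun j _ => ?_).trans (by simp)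
      rw [sum_boole]
      exact count_exit ρ U ε hU _ j
    have b0 : ∑ i : U, ∑ w : Fin T → S × Bool, (1 : ℝ) = U.card * N ^ T := by
      simp [hN]
    rw [b0]
    have hNT : 0 < N ^ T := by positivity
    have e3 : 1 - T / N - T * ε = (U.card : ℝ)⁻¹ * N⁻¹ ^ T *
        (U.card * N ^ T - U.card * (T * (N ^ T / N)) - N ^ T * (T * (ε * U.card))) := by
      rw [inv_pow]; field_simp
    rw [e3]
    refine mul_le_mul_of_nonneg_left (by linarith) (by positivity)
  refine hL.trans (key.trans ?_)
  exact mul_le_mul_of_nonneg_left hR (mul_nonneg (Real.rpow_nonneg hK.le p) (by positivity))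

end chain

end Crest.Agent.R140
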