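import Crest.Agent.R140.Blocks

/-! The lower bound for a sum of alternating sums whose jumps are nested in every period. -/

set_option autoImplicit false

namespace Crest.Agent.R140

open Finset Crest.AnalysisR

universe u

theorem window_bound {Y : Type*} [NormedAddCommGroup Y] (u : ℕ → Y) (hu : ∀ l, ‖u l‖ ≤ 1)
    (k o e : ℕ) (ho : o ≤ e) :
    ‖∑ l ∈ range (k + e), u l - ∑ l ∈ range k, u (o + l)‖ ≤ e := by
  have h1 : k + e = o + (k + (e - o)) := by omega
  rw [h1, sum_range_add, sum_range_add]
  have h2 : ∑ x ∈ range o, u x + (∑ x ∈ range k, u (o + x) +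
      ∑ x ∈ range (e - o), u (o + (k + x))) - ∑ l ∈ range k, u (o + l) =
      ∑ x ∈ range o, u x + ∑ x ∈ range (e - o), u (o + (k + x)) := by abel
  rw [h2]
  have h3 : ‖∑ x ∈ range o, u x‖ ≤ o :=
    (norm_sum_le _ _).trans ((sum_le_card_nsmul _ _ 1 fun j _ => hu _).trans (by simp))
  have h4 : ‖∑ x ∈ range (e - o), u (o + (k + x))‖ ≤ ((e - o : ℕ) : ℝ) :=
    (norm_sum_le _ _).trans ((sum_le_card_nsmul _ _ 1 fun j _ => hu _).trans (by simp))
  rw [Nat.cast_sub ho] at h4
  linarith [norm_add_le (∑ x ∈ range o, u x) (∑ x ∈ range (e - o), u (o + (k + x)))]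

variable {p K θ : ℝ}

theorem config_bound {n : ℕ} (J : JS.{u} p K θ n) (T k e : ℕ) (hT : 1 ≤ T) (hk : 1 ≤ k)
    (val : Bool → ℕ → ℕ → ℕ) (o : Bool → ℕ → ℕ) (E : Bool → ℕ → ℝ)
    (ho : ∀ s, ∀ j < T, o s j ≤ e)
    (hval : ∀ s, ∀ j < T, ∀ l < k + e, val s j l < n)
    (hL : ∀ j, j + 1 < T → E false j < E false (j + 1))
    (hR : ∀ j, j + 1 < T → E true (j + 1) < E true j)
    (hLR : ∀ j < T, E false j < E true j) (h01 : E true 0 < E false 0 + 1)
    (H : ∀ s j l s' j' l', j < T → j' < T → l < k + e → l' < k + e →
      E s j + l - o s j < E s' j' + l' - o s' j' → val s j l < val s' j' l')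
    (m : ℝ)
    (hm : m ≤ θ * T / 2 ∨ ∀ t : (Fin k ×ₗ Bool) ×ₗ Fin T → ℕ, StrictMono t → (∀ q, t q < n) →
      m + 2 * e * T ≤ ‖pat J.y t‖) :
    m ≤ ‖∑ j ∈ range T, ∑ l ∈ range (k + e), (J.y (val false j l) - J.y (val true j l))‖ := by
  have hL' : ∀ j j', j < j' → j' < T → E false j < E false j' := by
    intro j j' h hj'
    induction j', h using Nat.le_induction with
    | base => exact hL j hj'
    | succ i hi ih => exact (ih (by omega)).trans (hL i hj')
  have hR' : ∀ j j', j < j' → j' < T → E true j' < E true j := by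
    intro j j' h hj'
    induction j', h using Nat.le_induction with
    | base => exact hR j hj'
    | succ i hi ih => exact (hR i hj').trans (ih (by omega))
  have hLle : ∀ j j', j ≤ j' → j' < T → E false j ≤ E false j' := by
    intro j j' h hj'
    rcases h.lt_or_eq with h | h
    · exact (hL' j j' h hj').le
    · rw [h]
  have hRle : ∀ j j', j ≤ j' → j' < T → E true j' ≤ E true j := by
    intro j j' h hj'
    rcases h.lt_or_eq with h | h
    · exact (hR' j j' h hj').le
    · rw [h]
  have hLR' : ∀ j < T, ∀ j' < T, E false j < E true j' := by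
    intro j hj j' hj'
    have h1 := hLle j (T - 1) (by omega) (by omega)
    have h2 := hRle j' (T - 1) (by omega) (by omega)
    have h3 := hLR (T - 1) (by omega)
    linarith
  have hlo : ∀ s, ∀ j < T, E false 0 ≤ E s j := by
    intro s j hj
    cases s
    · exact hLle 0 j (by omega) hj
    · exact (hLR' 0 (by omega) j hj).le
  have hhi : ∀ s, ∀ j < T, E s j < E false 0 + 1 := by
    intro s j hj
    cases s
    · exact (hLR' j hj 0 (by omega)).trans h01
    · exact (hRle 0 j (by omega) hj).trans_lt h01
  set D := ∑ j ∈ range T, ∑ l ∈ range (k + e), (J.y (val false j l) - J.y (val true j l)) with hD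
  rcases hm with hm | hm
  · -- test against two functionals
    set κ₁ := val false 0 (o false 0) with hκ₁
    set κ₂ := val true (T - 1) (o true (T - 1)) with hκ₂
    have ho1 : o false 0 < k + e := by have := ho false 0 (by omega); omega
    have ho2 : o true (T - 1) < k + e := by have := ho true (T - 1) (by omega); omega
    have hκ₁n : κ₁ < n := hval _ _ (by omega) _ ho1
    have hκ₂n : κ₂ < n := hval _ _ (by omega) _ ho2
    have hκ : κ₁ < κ₂ := H _ _ _ _ _ _ (by omega) (by omega) ho1 ho2 (by
      have := hLR' 0 (by omega) (T - 1) (by omega); linarith)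
    have below : ∀ s, ∀ j < T, ∀ l < k + e, l < o s j → val s j l < κ₁ := by
      intro s j hj l hl h
      refine H _ _ _ _ _ _ hj (by omega) hl ho1 ?_
      have h1 : (l : ℝ) + 1 ≤ o s j := by exact_mod_cast h
      have := hhi s j hj
      linarith
    have above : ∀ s, ∀ j < T, ∀ l < k + e, o s j < l → κ₂ < val s j l := by
      intro s j hj l hl h
      refine H _ _ _ _ _ _ (by omega) hj ho2 hl ?_
      have h1 : (o s j : ℝ) + 1 ≤ l := by exact_mod_cast h
      have := hlo s j hj
      have := hhi true (T - 1) (by omega)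
      linarith
    have ha : ∀ j < T, ∀ l < k + e, (J.f κ₁ - J.f κ₂) (J.y (val false j l)) =
        if l = o false j then θ else 0 := by
      intro j hj l hl
      rw [sub_apply, J.hyf _ hκ₁n _ (hval _ _ hj _ hl),
        J.hyf _ hκ₂n _ (hval _ _ hj _ hl)]
      rcases lt_trichotomy l (o false j) with h | h | h
      · have := below false j hj l hl h
        rw [if_neg (by omega), if_neg (by omega), if_neg (by omega), sub_self]
      · have h1 : κ₁ ≤ val false j l := by
          rcases Nat.eq_zero_or_pos j with h0 | h0
          · subst h0; rw [h]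
          · refine (H _ _ _ _ _ _ (by omega) hj ho1 hl ?_).le
            have := hL' 0 j h0 hj
            rw [h]; linarith
        have h2 : val false j l < κ₂ := by
          refine H _ _ _ _ _ _ hj (by omega) hl ho2 ?_
          have := hLR' j hj (T - 1) (by omega)
          rw [h]; linarith
        rw [if_pos h1, if_neg (by omega), if_pos h, sub_zero]
      · have := above false j hj l hl h
        rw [if_pos (by omega), if_pos (by omega), if_neg (by omega), sub_self]
    have hb : ∀ j < T, ∀ l < k + e, (J.f κ₁ - J.f κ₂) (J.y (val true j l)) = 0 := by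
      intro j hj l hl
      rw [sub_apply, J.hyf _ hκ₁n _ (hval _ _ hj _ hl),
        J.hyf _ hκ₂n _ (hval _ _ hj _ hl)]
      rcases lt_trichotomy l (o true j) with h | h | h
      · have := below true j hj l hl h
        rw [if_neg (by omega), if_neg (by omega), sub_self]
      · have h1 : κ₂ ≤ val true j l := by
          rcases (show j = T - 1 ∨ j < T - 1 by omega) with h0 | h0
          · rw [h, h0]
          · refine (H _ _ _ _ _ _ (by omega) hj ho2 hl ?_).le
            have := hR' j (T - 1) h0 (by omega)
            rw [h]; linarith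
        rw [if_pos (by omega), if_pos h1, sub_self]
      · have := above true j hj l hl h
        rw [if_pos (by omega), if_pos (by omega), sub_self]
    have hφ : (J.f κ₁ - J.f κ₂) D = T * θ := by
      rw [hD, map_sum]
      have : ∀ j ∈ range T, (J.f κ₁ - J.f κ₂)
          (∑ l ∈ range (k + e), (J.y (val false j l) - J.y (val true j l))) = θ := by
        intro j hj
        have hj' := mem_range.1 hj
        rw [map_sum, sum_congr rfl (g := fun l => if l = o false j then θ else 0)
          (fun l hl => by rw [map_sub, ha j hj' l (mem_range.1 hl), hb j hj' l (mem_range.1 hl),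
            sub_zero])]
        have : o false j ∈ range (k + e) := by
          have := ho false j hj'
          exact mem_range.2 (by omega)
        simp [this]
      rw [sum_congr rfl this]; simp
    have h1 := (J.f κ₁).le_of_opNorm_le (J.hf κ₁) D
    have h2 := (J.f κ₂).le_of_opNorm_le (J.hf κ₂) D
    rw [sub_apply] at hφ
    rw [Real.norm_eq_abs] at h1 h2
    have := le_abs_self (J.f κ₁ D)
    have := neg_abs_le (J.f κ₂ D)
    linarith
  · let jj : Bool → Fin T → ℕ := fun s j => if s then (Fin.rev j : Fin T) else j
    have hjj : ∀ s j, jj s j < T := by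
      intro s j; simp only [jj]; split_ifs; exacts [(Fin.rev j).2, j.2]
    let t : (Fin k ×ₗ Bool) ×ₗ Fin T → ℕ := fun q =>
      val (ofLex (ofLex q).1).2 (jj (ofLex (ofLex q).1).2 (ofLex q).2)
        (o (ofLex (ofLex q).1).2 (jj (ofLex (ofLex q).1).2 (ofLex q).2) + (ofLex (ofLex q).1).1)
    have hidx : ∀ s j (l : Fin k), o s (jj s j) + l < k + e := by
      intro s j l
      have := ho s _ (hjj s j)
      have := l.2
      omega
    have ht : StrictMono t := by
      intro q q' hq
      refine H _ _ _ _ _ _ (hjj _ _) (hjj _ _) (hidx _ _ _) (hidx _ _ _) ?_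
      push_cast
      rcases Prod.Lex.lt_iff.1 hq with h1 | ⟨h1, h2⟩
      · rcases Prod.Lex.lt_iff.1 h1 with h3 | ⟨h3, h4⟩
        · have h5 : (((ofLex (ofLex q).1).1 : ℕ) : ℝ) + 1 ≤ ((ofLex (ofLex q').1).1 : ℕ) := by
            exact_mod_cast h3
          have := hhi (ofLex (ofLex q).1).2 _ (hjj (ofLex (ofLex q).1).2 (ofLex q).2)
          have := hlo (ofLex (ofLex q').1).2 _ (hjj (ofLex (ofLex q').1).2 (ofLex q').2)
          linarith
        · rw [Bool.lt_iff] at h4
          rw [h3, h4.1, h4.2]
          have := hLR' _ (hjj false (ofLex q).2) _ (hjj true (ofLex q').2)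
          linarith
      · rw [h1]
        have : E (ofLex (ofLex q').1).2 (jj (ofLex (ofLex q').1).2 (ofLex q).2) <
            E (ofLex (ofLex q').1).2 (jj (ofLex (ofLex q').1).2 (ofLex q').2) := by
          cases (ofLex (ofLex q').1).2 with
          | false => exact hL' _ _ h2 (ofLex q').2.2
          | true => exact hR' _ _ (Fin.rev_lt_rev.2 h2) (Fin.rev (ofLex q).2).2
        linarith
    have h1 := hm t ht (fun q => hval _ _ (hjj _ _) _ (hidx _ _ _))
    have h2 : pat J.y t = ∑ j ∈ range T, (∑ l ∈ range k, J.y (val false j (o false j + l)) -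
        ∑ l ∈ range k, J.y (val true j (o true j + l))) := by
      simp only [pat, alt, sum_sub_distrib]
      congr 1
      · rw [← Fin.sum_univ_eq_sum_range
          (fun j => ∑ l ∈ range k, J.y (val false j (o false j + l)))]
        refine sum_congr rfl fun j _ => ?_
        rw [← Fin.sum_univ_eq_sum_range (fun l => J.y (val false j (o false j + l)))]
        rfl
      · rw [← Fin.sum_univ_eq_sum_range
          (fun j => ∑ l ∈ range k, J.y (val true j (o true j + l)))]
        refine Fintype.sum_equiv Fin.revPerm _ _ fun j => ?_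
        rw [← Fin.sum_univ_eq_sum_range
          (fun l => J.y (val true (Fin.revPerm j) (o true (Fin.revPerm j) + l)))]
        rfl
    have h3 : ‖D - pat J.y t‖ ≤ 2 * e * T := by
      rw [h2, hD, ← sum_sub_distrib]
      refine (norm_sum_le _ _).trans ?_
      refine (sum_le_card_nsmul _ _ (2 * e : ℝ) fun j hj => ?_).trans (by simp [mul_comm])
      have hj' := mem_range.1 hj
      have h4 := window_bound (fun l => J.y (val false j l)) (fun l => J.hy _) k _ e (ho false j hj')
      have h5 := window_bound (fun l => J.y (val true j l)) (fun l => J.hy _) k _ e (ho true j hj')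
      rw [sum_sub_distrib]
      have h6 := norm_sub_le
        (∑ l ∈ range (k + e), J.y (val false j l) - ∑ l ∈ range k, J.y (val false j (o false j + l)))
        (∑ l ∈ range (k + e), J.y (val true j l) - ∑ l ∈ range k, J.y (val true j (o true j + l)))
      rw [sub_sub_sub_comm]
      linarith
    have h4 : ‖pat J.y t‖ ≤ ‖D‖ + ‖D - pat J.y t‖ := by
      have := norm_sub_le D (D - pat J.y t)
      rwa [sub_sub_cancel] at this
    linarith

end Crest.Agent.R140
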