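import Crest.Agent.R140.Model
import Crest.Agent.R140.Chain
import Crest.Agent.R140.Config

/-! The ballistic reversible chain in a space with a long James sequence. -/

set_option autoImplicit false

namespace Crest.Agent.R140

open Finset Crest.AnalysisR
open scoped Pointwise

universe u

variable {S : Type}

/-- The letters together with the identity. -/
def ball1 (S : Type) [Fintype S] [DecidableEq S] : Finset (FreeGroup S) :=
  insert 1 ((univ : Finset (S × Bool)).image gl)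

theorem gl_mem_ball1 [Fintype S] [DecidableEq S] (σ : S × Bool) : gl σ ∈ ball1 S :=
  mem_insert_of_mem (mem_image_of_mem _ (mem_univ _))

theorem pre_inv_mem [Fintype S] [DecidableEq S] (c : ℕ → S × Bool) (j : ℕ) :
    (pre c j)⁻¹ ∈ ball1 S ^ j := by
  induction j with
  | zero => simp [pre]
  | succ j ih =>
    rw [pre, mul_inv_rev, pow_succ, ← gl_inv]
    exact mul_mem_mul ih (gl_mem_ball1 _)

theorem ordered_nat [Fintype S] [DecidableEq S] (M : Model S) (T Kw : ℕ) (ε : ℝ) (hε : 0 < ε) :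
    ∃ (V : Type) (_ : DecidableEq V) (ρ : FreeGroup S →* Equiv.Perm V) (U : Finset V) (n : ℕ)
      (X : (S × Bool) × ℕ → V → ℕ), IsFolner ρ ε U ∧
      (∀ lam v, lam.2 < Kw → v ∈ U → X lam v < n) ∧
      ∀ v g g' lam lam', g⁻¹ ∈ ball1 S ^ T → g'⁻¹ ∈ ball1 S ^ T → lam.2 < Kw → lam'.2 < Kw →
        ρ g v ∈ U → M.pt (g⁻¹, lam) < M.pt (g'⁻¹, lam') → X lam (ρ g v) < X lam' (ρ g' v) := by
  classical
  let Λ₀ : Finset ((S × Bool) × ℕ) := univ ×ˢ range Kw
  have hΛ : ∀ lam : (S × Bool) × ℕ, lam.2 < Kw → lam ∈ Λ₀ := fun lam h =>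
    mem_product.2 ⟨mem_univ _, mem_range.2 h⟩
  obtain ⟨V, W, _, _, ρ, x, hF, hmono, heq⟩ := ordered_ext M.pt M.pt_injective
    (fun σ p q h => by rw [M.pt_act, M.pt_act]; exact M.mono _ h) ((ball1 S ^ T) ×ˢ Λ₀)
  obtain ⟨U, hU⟩ := hF ε hε
  have h1 : (1 : FreeGroup S) ∈ ball1 S := mem_insert_self _ _
  have key : ∀ lam ∈ Λ₀, ∀ j ≤ T, ∀ w ∈ ball1 S ^ j, ∀ v, x (w, lam) v = x (1, lam) (ρ w⁻¹ v) := by
    intro lam hlam j
    induction j with
    | zero =>
      intro _ w hw v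
      simp only [pow_zero, mem_one] at hw
      simp [hw]
    | succ j ih =>
      intro hj w hw v
      have hwT : w ∈ ball1 S ^ T := pow_subset_pow_right h1 hj hw
      rw [pow_succ'] at hw
      obtain ⟨a, ha, w', hw', rfl⟩ := mem_mul.1 hw
      rcases mem_insert.1 ha with rfl | ha
      · rw [one_mul]; exact ih (by omega) w' hw' v
      · obtain ⟨σ, -, rfl⟩ := mem_image.1 ha
        have hw'T : w' ∈ ball1 S ^ T := pow_subset_pow_right h1 (by omega) hw'
        have h2 := heq (ρ (gl (inv σ)) v) σ (w', lam) (mem_product.2 ⟨hw'T, hlam⟩)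
          (mem_product.2 ⟨hwT, hlam⟩)
        rw [rho_apply_inv] at h2
        have h3 := ih (by omega) w' hw' (ρ (gl (inv σ)) v)
        rw [mul_inv_rev, map_mul, Equiv.Perm.mul_apply, ← gl_inv, ← h3, ← h2]
        rfl
  let W₀ : Finset W := (Λ₀ ×ˢ U).image (fun q => x (1, q.1) q.2)
  let pos : W → ℕ := fun a => (W₀.filter (· < a)).card
  have hW₀ : ∀ lam : (S × Bool) × ℕ, lam.2 < Kw → ∀ v ∈ U, x (1, lam) v ∈ W₀ := fun lam h v hv =>
    mem_image.2 ⟨(lam, v), mem_product.2 ⟨hΛ lam h, hv⟩, rfl⟩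
  refine ⟨V, inferInstance, ρ, U, W₀.card, fun lam v => pos (x (1, lam) v), hU, ?_, ?_⟩
  · intro lam v h hv
    apply card_lt_card
    refine ⟨filter_subset _ _, fun hs => ?_⟩
    exact lt_irrefl _ (mem_filter.1 (hs (hW₀ lam h v hv))).2
  · intro v g g' lam lam' hg hg' hl hl' hv hlt
    have h2 := hmono v _ (mem_product.2 ⟨hg, hΛ lam hl⟩) _ (mem_product.2 ⟨hg', hΛ lam' hl'⟩) hlt
    rw [key lam (hΛ lam hl) T le_rfl _ hg, key lam' (hΛ lam' hl') T le_rfl _ hg', inv_inv,
      inv_inv] at h2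
    apply card_lt_card
    refine ⟨fun a ha => mem_filter.2 ⟨(mem_filter.1 ha).1, (mem_filter.1 ha).2.trans h2⟩,
      fun hs => ?_⟩
    exact lt_irrefl _ (mem_filter.1 (hs (mem_filter.2 ⟨hW₀ lam hl _ hv, h2⟩))).2

theorem extHom_pre {V A : Type} [AddCommGroup A] (ρ : FreeGroup S →* Equiv.Perm V)
    (α : S → V → A) (c : ℕ → S × Bool) (j : ℕ) (q : V × A) :
    extHom ρ α (pre c j) q =
      (ρ (pre c j) q.1, q.2 + ∑ i ∈ range j, extInc ρ α (c i) (ρ (pre c i) q.1)) := by
  induction j with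
  | zero => simp [pre]
  | succ j ih =>
    rw [pre, map_mul, Equiv.Perm.mul_apply, ih, extHom_gl, sum_range_succ, map_mul,
      Equiv.Perm.mul_apply, add_assoc]

/-- The nested intervals along a reduced word. -/
theorem nested (M : Model S) (T : ℕ) (c : ℕ → S × Bool)
    (hc : ∀ j, j + 1 < T → c (j + 1) ≠ inv (c j)) :
    ∃ (o : Bool → ℕ → ℕ) (E : Bool → ℕ → ℝ), (∀ s, ∀ j < T, o s j ≤ 2 * (T + 1)) ∧
      (∀ j, j + 1 < T → E false j < E false (j + 1)) ∧
      (∀ j, j + 1 < T → E true (j + 1) < E true j) ∧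
      (∀ j < T, E false j < E true j) ∧ (E true 0 < E false 0 + 1) ∧
      (∀ j < T, ∀ l : ℕ, M.pt ((pre c (j + 1))⁻¹, (c j, l)) = E false j + l - o false j) ∧
      (∀ j < T, ∀ l : ℕ, M.pt ((pre c j)⁻¹, (inv (c j), l)) = E true j + l - o true j) := by
  have hgap : ∀ j, ∃ n : ℤ, (n = 0 ∨ n = 1) ∧ (j + 1 < T →
      M.z (c j) < M.z (inv (c (j + 1))) - M.δ + n ∧
      M.z (inv (c (j + 1))) + n < M.z (c j) + 1 - M.δ) := by
    intro j
    by_cases hj : j + 1 < T
    · obtain ⟨n, h1, h2⟩ := M.gap (c j) (inv (c (j + 1))) (fun h => hc j hj (by rw [h, inv_inv']))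
      exact ⟨n, h1, fun _ => h2⟩
    · exact ⟨0, Or.inl rfl, fun h => absurd h hj⟩
  choose nn hnn hnn' using hgap
  obtain ⟨N, hN0, hNs⟩ : ∃ N : ℕ → ℤ, N 0 = 0 ∧ ∀ j, N (j + 1) = N j + nn j - M.κ (c (j + 1)) :=
    ⟨fun j => Nat.rec 0 (fun j a => a + nn j - M.κ (c (j + 1))) j, rfl, fun j => rfl⟩
  have hNb : ∀ j : ℕ, -(j : ℤ) ≤ N j ∧ N j ≤ j := by
    intro j
    induction j with
    | zero => simp [hN0]
    | succ j ih =>
      rw [hNs]
      rcases hnn j with h | h <;> rcases M.κ_cases (c (j + 1)) with h' | h' <;>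
        push_cast <;> omega
  let Pr : ℕ → ℝ := fun j => M.ρ (pre c (j + 1))⁻¹ (M.z (c j))
  let Qr : ℕ → ℝ := fun j => M.ρ (pre c j)⁻¹ (M.z (inv (c j)))
  have hpre : ∀ j x, M.ρ (pre c (j + 1))⁻¹ x = M.ρ (pre c j)⁻¹ (M.ρ (gl (inv (c j))) x) := by
    intro j x
    rw [pre, mul_inv_rev, map_mul, Equiv.Perm.mul_apply, gl_inv]
  have hPr : ∀ j, Pr j = M.ρ (pre c j)⁻¹ (M.z (inv (c j)) + M.κ (c j) - M.δ) := by
    intro j
    simp only [Pr]
    rw [hpre, ← M.map_left (c j), rho_inv_apply]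
  have hQr : ∀ j, Qr j + M.κ (c j) = M.ρ (pre c (j + 1))⁻¹ (M.z (c j) + 1 - M.δ) := by
    intro j
    have hk : (M.κ (c j) : ℝ) + M.κ (inv (c j)) = 1 := by exact_mod_cast M.κ_add (c j)
    have h1 := M.map_left (inv (c j))
    rw [inv_inv'] at h1
    rw [hpre, show M.z (c j) + 1 - M.δ = M.z (c j) + M.κ (inv (c j)) - M.δ + M.κ (c j) by linarith,
      M.per, h1, M.per]
  have hδ0 := M.δ_pos
  have hδ1 := M.δ_lt
  let o : Bool → ℕ → ℕ := fun s j => ((if s then M.κ (c j) else 0) + N j + (T + 1)).toNat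
  have ho : ∀ s, ∀ j < T, (o s j : ℤ) = (if s then M.κ (c j) else 0) + N j + (T + 1) := by
    intro s j hj
    apply Int.toNat_of_nonneg
    have := hNb j
    rcases M.κ_cases (c j) with h | h <;> split_ifs <;> omega
  have ho' : ∀ (s : Bool) (j : ℕ), j < T →
      (o s j : ℝ) = (if s then (M.κ (c j) : ℝ) else 0) + ((N j : ℤ) : ℝ) + (T + 1) := by
    intro s j hj
    have := congrArg (Int.cast : ℤ → ℝ) (ho s j hj)
    push_cast at this
    exact this
  refine ⟨o, fun s j => (if s then Qr j + M.κ (c j) else Pr j) + ((N j : ℤ) : ℝ) + (T + 1), ?_, ?_, ?_, ?_, ?_,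
    ?_, ?_⟩
  · intro s j hj
    have h1 := ho s j hj
    have := hNb j
    rcases M.κ_cases (c j) with h | h <;> split_ifs at h1 <;> omega
  · intro j hj
    have h1 := M.mono (pre c (j + 1))⁻¹ (show M.z (c j) < M.z (inv (c (j + 1))) +
      M.κ (c (j + 1)) - M.δ + ((nn j - M.κ (c (j + 1)) : ℤ) : ℝ) by
        have := (hnn' j hj).1
        push_cast; linarith)
    rw [M.per, ← hPr] at h1
    simp only [hNs, Bool.false_eq_true, if_false]
    push_cast at h1 ⊢
    change Pr j < _ at h1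
    linarith
  · intro j hj
    have h1 := M.mono (pre c (j + 1))⁻¹ (hnn' j hj).2
    rw [M.per, ← hQr] at h1
    simp only [hNs, if_true]
    push_cast
    change Qr (j + 1) + _ < _ at h1
    linarith
  · intro j _
    have h1 := M.mono (pre c j)⁻¹ (show M.z (inv (c j)) + M.κ (c j) - M.δ <
      M.z (inv (c j)) + M.κ (c j) by linarith)
    rw [M.per, ← hPr] at h1
    simp only [Bool.false_eq_true, if_false, if_true]
    change _ < Qr j + _ at h1
    linarith
  · have h1 := M.mono (pre c 0)⁻¹ (show M.z (inv (c 0)) + M.κ (c 0) <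
      M.z (inv (c 0)) + M.κ (c 0) - M.δ + ((1 : ℤ) : ℝ) by push_cast; linarith)
    rw [M.per, M.per, ← hPr] at h1
    simp only [Bool.false_eq_true, if_false, if_true]
    change Qr 0 + _ < _ at h1
    push_cast at h1
    linarith
  · intro j hj l
    have h1 := M.per (pre c (j + 1))⁻¹ (M.z (c j)) l
    push_cast at h1
    simp only [Model.pt, h1, ho' false j hj, Bool.false_eq_true, if_false, Pr]
    ring
  · intro j hj l
    have h1 := M.per (pre c j)⁻¹ (M.z (inv (c j))) l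
    push_cast at h1
    simp only [Model.pt, h1, ho' true j hj, if_true, Qr]
    ring

theorem comb (p K θ : ℝ) (hp : 0 < p) (hK : 0 < K) (T k : ℕ) (hT : 1 ≤ T) (hk : 1 ≤ k) :
    ∃ n : ℕ, ∀ J : JS.{u} p K θ n, ∀ M m : ℝ, 0 ≤ M → 0 ≤ m → AltLe J (k + 2 * (T + 1)) M →
      (m ≤ θ * T / 2 ∨ ∀ t : (Fin k ×ₗ Bool) ×ₗ Fin T → ℕ, StrictMono t → (∀ q, t q < n) →
        m + 2 * ((2 * (T + 1) : ℕ) : ℝ) * T ≤ ‖pat J.y t‖) →
      1 / 2 * m ^ p ≤ K ^ p * T * M ^ p := by
  classical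
  have hT0 : (0 : ℝ) < T := by exact_mod_cast hT
  have : NeZero (2 * T) := ⟨by omega⟩
  obtain ⟨Md⟩ := exists_model (Fin (2 * T))
  set Kw := k + 2 * (T + 1) with hKw
  obtain ⟨V, _, ρ, U, n, X, hU, hXn, hX⟩ := ordered_nat Md T Kw (1 / (8 * T)) (by positivity)
  refine ⟨n, fun J M m hM hm hJ hlow => ?_⟩
  let α : Fin (2 * T) → V → (ℕ →₀ ℤ) := fun s v => ∑ l ∈ range Kw,
    (Finsupp.single (X ((s, true), l) (ρ (gl (s, true)) v)) 1 -
      Finsupp.single (X ((s, false), l) v) 1)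
  let Φ : (ℕ →₀ ℤ) →ₗ[ℤ] J.Y := Finsupp.linearCombination ℤ J.y
  have hinc : ∀ σ v, Φ (extInc ρ α σ v) =
      ∑ l ∈ range Kw, (J.y (X (σ, l) (ρ (gl σ) v)) - J.y (X (inv σ, l) v)) := by
    rintro ⟨s, b⟩ v
    cases b with
    | true => simp [extInc, α, Φ, inv, map_sum]
    | false =>
      have h1 : ρ (gl (s, true)) (ρ (gl (s, false)) v) = v := rho_apply_inv ρ (s, true) v
      simp [extInc, α, Φ, inv, map_sum, h1]
  obtain ⟨Y, hY⟩ := ext_folner ρ α (1 / (8 * T)) (1 / (8 * T)) (by positivity) U hU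
  have h1mem : (1 : FreeGroup (Fin (2 * T))) ∈ ball1 (Fin (2 * T)) := mem_insert_self _ _
  have hball : ∀ c : ℕ → Fin (2 * T) × Bool, ∀ j ≤ T, (pre c j)⁻¹ ∈ ball1 (Fin (2 * T)) ^ T :=
    fun c j hj => pow_subset_pow_right h1mem hj (pre_inv_mem c j)
  have main := chain_bound (extHom ρ α) (U ×ˢ Y) hp J.mt hK _ hY (fun q => Φ q.2) T hT M m hM hm
    (by
      intro σ q hq hq'
      rw [extHom_gl] at hq' ⊢
      simp only [map_add, add_sub_cancel_left, hinc]
      have hv := (mem_product.1 hq).1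
      have hv' := (mem_product.1 hq').1
      simp only at hv'
      have hg1 : (gl σ)⁻¹ ∈ ball1 (Fin (2 * T)) ^ T := by
        simpa [pre] using hball (fun _ => σ) 1 hT
      have hg0 : (1 : FreeGroup (Fin (2 * T)))⁻¹ ∈ ball1 (Fin (2 * T)) ^ T := by
        simpa [pre] using hball (fun _ => σ) 0 (by omega)
      have hP : ∀ l : ℕ, Md.pt ((gl σ)⁻¹, (σ, l)) = Md.z (inv σ) + Md.κ σ - Md.δ + l := by
        intro l
        have h1 := Md.per (gl σ)⁻¹ (Md.z σ) l
        push_cast at h1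
        simp only [Model.pt, h1]
        rw [← Md.map_left σ, ← gl_inv, rho_inv_apply]
      have hQ : ∀ l : ℕ, Md.pt ((1 : FreeGroup (Fin (2 * T)))⁻¹, (inv σ, l)) = Md.z (inv σ) + l := by
        intro l; simp [Model.pt]
      have hv1 : ρ 1 q.1 ∈ U := by simpa using hv
      have hδ0 := Md.δ_pos
      have hδ1 := Md.δ_lt
      have hPQ : ∀ l l' : ℕ, l < Kw → l' < Kw → (Md.κ σ : ℝ) - Md.δ + l < l' →
          X (σ, l) (ρ (gl σ) q.1) < X (inv σ, l') q.1 := by
        intro l l' hl hl' h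
        have := hX q.1 (gl σ) 1 (σ, l) (inv σ, l') hg1 hg0 hl hl' hv' (by rw [hP, hQ]; linarith)
        simpa using this
      have hQP : ∀ l l' : ℕ, l < Kw → l' < Kw → (l : ℝ) < (Md.κ σ : ℝ) - Md.δ + l' →
          X (inv σ, l) q.1 < X (σ, l') (ρ (gl σ) q.1) := by
        intro l l' hl hl' h
        have := hX q.1 1 (gl σ) (inv σ, l) (σ, l') hg0 hg1 hl hl' hv1 (by rw [hP, hQ]; linarith)
        simpa using this
      rcases Md.κ_cases σ with h | h
      · rw [h] at hPQ hQP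
        refine alt_bound J hJ _ _ (fun l hl => hPQ l l hl hl (by push_cast; linarith))
          (fun l l' h1 h2 => hQP l l' (by omega) h2 ?_) (fun l hl => hXn _ _ hl hv)
        have : (l : ℝ) + 1 ≤ l' := by exact_mod_cast h1
        push_cast; linarith
      · rw [h] at hPQ hQP
        rw [← norm_neg, ← sum_neg_distrib]
        simp only [neg_sub]
        refine alt_bound J hJ _ _ (fun l hl => hQP l l hl hl (by push_cast; linarith))
          (fun l l' h1 h2 => hPQ l l' (by omega) h2 ?_) (fun l hl => hXn _ _ hl hv')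
        have : (l : ℝ) + 1 ≤ l' := by exact_mod_cast h1
        push_cast; linarith)
    (by
      intro c q hc hin
      have hv : ∀ j ≤ T, ρ (pre c j) q.1 ∈ U := by
        intro j hj
        have := hin j hj
        rw [extHom_pre] at this
        exact (mem_product.1 this).1
      rw [extHom_pre]
      simp only [map_add, add_sub_cancel_left, map_sum, hinc]
      obtain ⟨o, E, ho, hL, hR, hLR, h01, hP, hQ⟩ := nested Md T c hc
      let gg : Bool → ℕ → ℕ := fun s j => if s then j else j + 1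
      let ll : Bool → ℕ → Fin (2 * T) × Bool := fun s j => if s then inv (c j) else c j
      have hgg : ∀ s, ∀ j < T, gg s j ≤ T := by
        intro s j hj; simp only [gg]; split_ifs <;> omega
      have hE : ∀ s, ∀ j < T, ∀ l : ℕ,
          Md.pt ((pre c (gg s j))⁻¹, (ll s j, l)) = E s j + l - o s j := by
        intro s j hj l
        cases s
        · exact hP j hj l
        · exact hQ j hj l
      have := config_bound J T k (2 * (T + 1)) hT hk
        (fun s j l => X (ll s j, l) (ρ (pre c (gg s j)) q.1)) o E ho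
        (fun s j hj l hl => hXn _ _ hl (hv _ (hgg s j hj))) hL hR hLR h01
        (fun s j l s' j' l' hj hj' hl hl' h => hX q.1 _ _ (ll s j, l) (ll s' j', l')
          (hball c _ (hgg s j hj)) (hball c _ (hgg s' j' hj')) hl hl' (hv _ (hgg s j hj))
          (by rw [hE s j hj, hE s' j' hj']; exact h)) m hlow
      simpa [gg, ll, pre] using this)
  have e1 : (1 : ℝ) - T / (Fintype.card (Fin (2 * T) × Bool) : ℝ) -
      T * (1 / (8 * T) + 1 / (8 * T)) = 1 / 2 := by
    simp only [Fintype.card_prod, Fintype.card_fin, Fintype.card_bool]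
    push_cast
    field_simp
    ring
  rwa [e1] at main

end Crest.Agent.R140
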