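import Crest.Agent.R140.Blocks

/-! The derived sets of the unit ball; a point of the `N`-th derived set yields a James sequence
of length `N` in a finite `ℓ^p`-sum of the space. -/

set_option autoImplicit false

namespace Crest.Agent.R140

open Finset Crest.AnalysisR

universe u

variable {X : Type u} [NormedAddCommGroup X] [NormedSpace ℝ X]

/-- The derived sets: convex hulls of midpoints of `ε`-separated pairs. -/
def dset (X : Type u) [NormedAddCommGroup X] [NormedSpace ℝ X] (ε : ℝ) : ℕ → Set X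
  | 0 => Metric.closedBall 0 1
  | j + 1 => convexHull ℝ {z | ∃ x ∈ dset X ε j, ∃ y ∈ dset X ε j,
      ε ≤ ‖x - y‖ ∧ z = (1 / 2 : ℝ) • (x + y)}

theorem dset_convex (ε : ℝ) (j : ℕ) : Convex ℝ (dset X ε j) := by
  cases j with
  | zero => exact convex_closedBall _ _
  | succ j => exact convex_convexHull _ _

theorem dset_succ_subset (ε : ℝ) (j : ℕ) : dset X ε (j + 1) ⊆ dset X ε j := by
  refine convexHull_min ?_ (dset_convex ε j)
  rintro z ⟨x, hx, y, hy, -, rfl⟩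
  rw [smul_add]
  exact dset_convex ε j hx hy (by norm_num) (by norm_num) (by norm_num)

theorem dset_norm_le (ε : ℝ) (j : ℕ) : ∀ z ∈ dset X ε j, ‖z‖ ≤ 1 := by
  induction j with
  | zero => intro z hz; simpa [dset] using hz
  | succ j ih => exact fun z hz => ih z (dset_succ_subset ε j hz)

theorem dset_neg (ε : ℝ) (j : ℕ) : ∀ z ∈ dset X ε j, -z ∈ dset X ε j := by
  induction j with
  | zero => intro z hz; simpa [dset] using hz
  | succ j ih =>
    have : dset X ε (j + 1) ⊆ -dset X ε (j + 1) := by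
      refine convexHull_min ?_ (dset_convex ε (j + 1)).neg
      rintro z ⟨x, hx, y, hy, hxy, rfl⟩
      refine Set.mem_neg.2 (subset_convexHull _ _ ⟨-x, ih x hx, -y, ih y hy, ?_, ?_⟩)
      · rwa [neg_sub_neg, norm_sub_rev]
      · rw [← smul_neg, neg_add]
    exact fun z hz => this hz

/-- Moments of a finitely supported random pair of sequences in the unit balls of the space
and of its dual. -/
def Mom (z : ℕ → X) (φ : ℕ → X → ℝ) (r : ℕ → ℕ → ℝ) : Prop :=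
  ∃ (Ω : Type) (_ : Fintype Ω) (w : Ω → ℝ) (M : Ω → ℕ → X) (ψ : Ω → ℕ → X →L[ℝ] ℝ),
    (∀ ω, 0 ≤ w ω) ∧ ∑ ω, w ω = 1 ∧ (∀ ω j, ‖M ω j‖ ≤ 1) ∧ (∀ ω κ, ‖ψ ω κ‖ ≤ 1) ∧
    (∀ j, ∑ ω, w ω • M ω j = z j) ∧ (∀ κ x, ∑ ω, w ω * ψ ω κ x = φ κ x) ∧
    ∀ κ j, ∑ ω, w ω * ψ ω κ (M ω j) = r κ j

theorem Mom.combo {z z' z'' : ℕ → X} {φ φ' φ'' : ℕ → X → ℝ} {r r' r'' : ℕ → ℕ → ℝ}
    (h : Mom z φ r) (h' : Mom z' φ' r') {a b : ℝ} (ha : 0 ≤ a) (hb : 0 ≤ b) (hab : a + b = 1)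
    (hz : ∀ j, a • z j + b • z' j = z'' j) (hφ : ∀ κ x, a * φ κ x + b * φ' κ x = φ'' κ x)
    (hr : ∀ κ j, a * r κ j + b * r' κ j = r'' κ j) : Mom z'' φ'' r'' := by
  obtain ⟨Ω, _, w, M, ψ, h1, h2, h3, h4, h5, h6, h7⟩ := h
  obtain ⟨Ω', _, w', M', ψ', h1', h2', h3', h4', h5', h6', h7'⟩ := h'
  refine ⟨Ω ⊕ Ω', inferInstance, Sum.elim (fun ω => a * w ω) (fun ω => b * w' ω),
    Sum.elim M M', Sum.elim ψ ψ', ?_, ?_, ?_, ?_, ?_, ?_, ?_⟩
  · rintro (ω | ω)
    · exact mul_nonneg ha (h1 ω)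
    · exact mul_nonneg hb (h1' ω)
  · simp [Fintype.sum_sum_type, ← mul_sum, h2, h2', hab]
  · rintro (ω | ω) j
    · exact h3 ω j
    · exact h3' ω j
  · rintro (ω | ω) j
    · exact h4 ω j
    · exact h4' ω j
  · intro j
    simp only [Fintype.sum_sum_type, Sum.elim_inl, Sum.elim_inr, mul_smul, ← smul_sum, h5, h5', hz]
  · intro κ x
    simp only [Fintype.sum_sum_type, Sum.elim_inl, Sum.elim_inr, mul_assoc, ← mul_sum, h6, h6', hφ]
  · intro κ j
    simp only [Fintype.sum_sum_type, Sum.elim_inl, Sum.elim_inr, mul_assoc, ← mul_sum, h7, h7', hr]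

theorem Mom.shift {z : ℕ → X} {φ : ℕ → X → ℝ} {r : ℕ → ℕ → ℝ} (h : Mom z φ r) (x₀ : X)
    (ψ₀ : X →L[ℝ] ℝ) (hx : ‖x₀‖ ≤ 1) (hψ : ‖ψ₀‖ ≤ 1) :
    Mom (fun j => Nat.casesOn j x₀ z) (fun κ => Nat.casesOn κ ψ₀ φ)
      (fun κ j => Nat.casesOn κ (ψ₀ (Nat.casesOn j x₀ z))
        (fun κ => Nat.casesOn j (φ κ x₀) (r κ))) := by
  obtain ⟨Ω, _, w, M, ψ, h1, h2, h3, h4, h5, h6, h7⟩ := h
  refine ⟨Ω, inferInstance, w, fun ω j => Nat.casesOn j x₀ (M ω),
    fun ω κ => Nat.casesOn κ ψ₀ (ψ ω), h1, h2, ?_, ?_, ?_, ?_, ?_⟩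
  · rintro ω (_ | j)
    · exact hx
    · exact h3 ω j
  · rintro ω (_ | j)
    · exact hψ
    · exact h4 ω j
  · rintro (_ | j)
    · simp [← sum_smul, h2]
    · exact h5 j
  · rintro (_ | κ) x
    · simp [← sum_mul, h2]
    · exact h6 κ x
  · rintro (_ | κ) (_ | j)
    · simp [← sum_mul, h2]
    · change ∑ ω, w ω * ψ₀ (M ω j) = ψ₀ (z j)
      simp only [← h5 j, map_sum, map_smul, smul_eq_mul]
    · exact h6 κ x₀
    · exact h7 κ j

theorem mom_of_mem (ε : ℝ) (hε : 0 < ε) (N : ℕ) : ∀ z ∈ dset X ε N,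
    Mom (fun _ => z) (fun _ _ => 0) (fun κ j => if κ < N ∧ κ < j then ε / 2 else 0) := by
  induction N with
  | zero =>
    intro z hz
    refine ⟨Unit, inferInstance, fun _ => 1, fun _ _ => z, fun _ _ => 0, ?_⟩
    have := dset_norm_le ε 0 z hz
    simp [this]
  | succ N ih =>
    refine convexHull_min (t := {z | Mom (fun _ => z) (fun _ _ => 0)
      (fun κ j => if κ < N + 1 ∧ κ < j then ε / 2 else 0)}) ?_ ?_
    · rintro z ⟨x, hx, y, hy, hxy, hz⟩
      have hz1 : ‖z‖ ≤ 1 :=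
        dset_norm_le ε (N + 1) z (subset_convexHull _ _ ⟨x, hx, y, hy, hxy, hz⟩)
      have hpos : 0 < ‖x - y‖ := lt_of_lt_of_le hε hxy
      obtain ⟨g, hg1, hg2⟩ := exists_dual_vector'' ℝ (x - y)
      let ψ₀ : X →L[ℝ] ℝ := (ε / ‖x - y‖) • g
      have hψ₀ : ‖ψ₀‖ ≤ 1 := by
        rw [norm_smul, Real.norm_eq_abs, abs_of_pos (by positivity)]
        have : ε / ‖x - y‖ ≤ 1 := (div_le_one hpos).2 hxy
        exact mul_le_one₀ this (norm_nonneg _) hg1
      have hψx : ψ₀ x - ψ₀ y = ε := by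
        rw [← map_sub]
        simp only [ψ₀, smul_apply, hg2, smul_eq_mul, RCLike.ofReal_real_eq_id,
          id_eq]
        field_simp
      refine ((ih x hx).shift z ψ₀ hz1 hψ₀).combo ((ih y hy).shift z (-ψ₀) hz1 (by simpa using hψ₀))
        (a := 1 / 2) (b := 1 / 2) (by norm_num) (by norm_num) (by norm_num) ?_ ?_ ?_
      · rintro (_ | j)
        · change (1 / 2 : ℝ) • z + (1 / 2 : ℝ) • z = z
          rw [← add_smul]; norm_num
        · simp only [hz, smul_add]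
      · rintro (_ | κ) v <;> simp
      · rintro (_ | κ) (_ | j)
        · simp
        · change 1 / 2 * ψ₀ x + 1 / 2 * (-ψ₀ y) = _
          rw [if_pos (by omega)]; linarith
        · simp
        · simp only [Nat.add_lt_add_iff_right]
          split_ifs <;> ring
    · intro z hz z' hz' a b ha hb hab
      refine Mom.combo hz hz' ha hb hab (fun _ => rfl) (by simp) (fun κ j => ?_)
      rw [← add_mul, hab, one_mul]

theorem markov_piLp {Y : Type u} [NormedAddCommGroup Y] {p K : ℝ} (hp : 1 < p)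
    [Fact (1 ≤ ENNReal.ofReal p)] (hY : HasMarkovType Y p K) (Ω : Type) [Fintype Ω] :
    HasMarkovType (PiLp (ENNReal.ofReal p) (fun _ : Ω => Y)) p K := by
  intro S _ _ w P h1 h2 h3 h4 h5 f t ht
  have hp' : (ENNReal.ofReal p).toReal = p := ENNReal.toReal_ofReal (by linarith)
  have hn : ∀ v : PiLp (ENNReal.ofReal p) (fun _ : Ω => Y), ‖v‖ ^ p = ∑ ω, ‖v ω‖ ^ p := by
    intro v
    rw [PiLp.norm_eq_sum (by rw [hp']; linarith), hp', one_div,
      Real.rpow_inv_rpow (sum_nonneg fun ω _ => by positivity) (by linarith)]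
  have key : ∀ Q : Matrix S S ℝ, ∑ i, ∑ j, w i * Q i j * ‖f j - f i‖ ^ p =
      ∑ ω, ∑ i, ∑ j, w i * Q i j * ‖f j ω - f i ω‖ ^ p := by
    intro Q
    simp only [hn, mul_sum, PiLp.sub_apply]
    rw [sum_congr rfl fun i _ => sum_comm, sum_comm]
  rw [key, key, mul_sum]
  exact sum_le_sum fun ω _ => hY S w P h1 h2 h3 h4 h5 (fun i => f i ω) t ht

theorem js_of_mem {p K : ℝ} (hp : 1 < p) (hX : HasMarkovType X p K) (ε : ℝ) (hε : 0 < ε) (N : ℕ)
    (hN : (dset X ε N).Nonempty) : Nonempty (JS.{u} p K (ε / 2) N) := by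
  obtain ⟨z, hz⟩ := hN
  obtain ⟨Ω, _, w, M, ψ, h1, h2, h3, h4, -, -, h7⟩ := mom_of_mem ε hε N z hz
  have : Fact (1 ≤ ENNReal.ofReal p) := ⟨by simpa using hp.le⟩
  have hp0 : 0 < p := by linarith
  have hp' : (ENNReal.ofReal p).toReal = p := ENNReal.toReal_ofReal hp0.le
  have hpq := Real.HolderConjugate.conjExponent hp
  set q := p.conjExponent with hq
  have hq0 : 0 < q := hpq.symm.pos
  refine ⟨JS.mk (PiLp (ENNReal.ofReal p) (fun _ : Ω => X)) (markov_piLp hp hX Ω)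
    (fun i => WithLp.toLp _ (fun ω => w ω ^ (1 / p) • M ω (i + 1)))
    (fun κ => ∑ ω, w ω ^ (1 / q) • (ψ ω κ).comp (PiLp.proj (ENNReal.ofReal p) (fun _ : Ω => X) ω))
    ?_ ?_ ?_⟩
  · intro i
    rw [PiLp.norm_eq_sum (by rw [hp']; exact hp0), hp']
    apply Real.rpow_le_one (sum_nonneg fun ω _ => by positivity) _ (by positivity)
    refine le_trans (sum_le_sum fun ω _ => ?_) h2.le
    have h8 : ‖w ω ^ (1 / p) • M ω (i + 1)‖ ≤ w ω ^ (1 / p) := by
      rw [norm_smul, Real.norm_eq_abs, abs_of_nonneg (Real.rpow_nonneg (h1 ω) _)]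
      exact mul_le_of_le_one_right (Real.rpow_nonneg (h1 ω) _) (h3 ω _)
    refine (Real.rpow_le_rpow (norm_nonneg _) h8 hp0.le).trans ?_
    rw [one_div, Real.rpow_inv_rpow (h1 ω) hp0.ne']
  · intro κ
    refine ContinuousLinearMap.opNorm_le_bound _ zero_le_one fun v => ?_
    rw [one_mul, _root_.sum_apply]
    refine (norm_sum_le _ _).trans ?_
    have h8 : ∀ ω, ‖(w ω ^ (1 / q) •
        (ψ ω κ).comp (PiLp.proj (ENNReal.ofReal p) (fun _ : Ω => X) ω)) v‖ ≤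
        ‖v ω‖ * w ω ^ (1 / q) := by
      intro ω
      rw [smul_apply, norm_smul, Real.norm_eq_abs,
        abs_of_nonneg (Real.rpow_nonneg (h1 ω) _), mul_comm]
      refine mul_le_mul_of_nonneg_right ?_ (Real.rpow_nonneg (h1 ω) _)
      simpa using (ψ ω κ).le_of_opNorm_le (h4 ω κ) (v ω)
    refine (sum_le_sum fun ω _ => h8 ω).trans ?_
    refine (Real.inner_le_Lp_mul_Lq_of_nonneg univ hpq (fun ω _ => norm_nonneg _)
      (fun ω _ => Real.rpow_nonneg (h1 ω) _)).trans ?_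
    have h9 : ∑ ω, (w ω ^ (1 / q)) ^ q = 1 := by
      refine Eq.trans (sum_congr rfl fun ω _ => ?_) h2
      rw [one_div, Real.rpow_inv_rpow (h1 ω) hq0.ne']
    rw [h9, Real.one_rpow, mul_one, PiLp.norm_eq_sum (by rw [hp']; exact hp0), hp']
  · intro κ hκ i _
    rw [_root_.sum_apply]
    have h8 : ∀ ω, (w ω ^ (1 / q) •
        (ψ ω κ).comp (PiLp.proj (ENNReal.ofReal p) (fun _ : Ω => X) ω))
        (WithLp.toLp _ (fun ω => w ω ^ (1 / p) • M ω (i + 1))) = w ω * ψ ω κ (M ω (i + 1)) := by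
      intro ω
      have h9 : w ω ^ (1 / q) * w ω ^ (1 / p) = w ω := by
        rw [← Real.rpow_add' (h1 ω) (by positivity), one_div, one_div,
          hpq.symm.inv_add_inv_eq_one, Real.rpow_one]
      simp only [smul_apply, ContinuousLinearMap.comp_apply, PiLp.proj_apply,
        map_smul, smul_eq_mul]
      rw [← mul_assoc, h9]
    simp only [h8, h7, hκ, true_and, Nat.lt_succ_iff]

end Crest.Agent.R140
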