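import Crest.Agent.R140.OrdExt

/-! A ping-pong action of a free group on the line, commuting with the integer translations. -/

set_option autoImplicit false

namespace Crest.Agent.R140

/-- Periodic extension of a map of the unit interval. -/
noncomputable def liftMap (ψ : ℝ → ℝ) (x : ℝ) : ℝ := (⌊x⌋ : ℝ) + ψ (Int.fract x)

theorem liftMap_add_int (ψ : ℝ → ℝ) (x : ℝ) (n : ℤ) : liftMap ψ (x + n) = liftMap ψ x + n := by
  simp only [liftMap, Int.floor_add_intCast, Int.fract_add_intCast]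
  push_cast; ring

theorem psi_mem {ψ : ℝ → ℝ} (hm : StrictMono ψ) (h0 : ψ 0 = 0) (h1 : ψ 1 = 1) (x : ℝ) :
    0 ≤ ψ (Int.fract x) ∧ ψ (Int.fract x) < 1 :=
  ⟨h0 ▸ hm.monotone (Int.fract_nonneg x), h1 ▸ hm (Int.fract_lt_one x)⟩

theorem liftMap_strictMono {ψ : ℝ → ℝ} (hm : StrictMono ψ) (h0 : ψ 0 = 0) (h1 : ψ 1 = 1) :
    StrictMono (liftMap ψ) := by
  intro x y hxy
  have hx := psi_mem hm h0 h1 x
  have hy := psi_mem hm h0 h1 y
  rcases (Int.floor_le_floor hxy.le).lt_or_eq with h | h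
  · have : (⌊x⌋ : ℝ) + 1 ≤ ⌊y⌋ := by exact_mod_cast h
    simp only [liftMap]; linarith
  · have : Int.fract x < Int.fract y := by
      simp only [Int.fract, h]; linarith
    simp only [liftMap, h]
    linarith [hm this]

theorem liftMap_liftMap {ψ φ : ℝ → ℝ} (hm : StrictMono ψ) (h0 : ψ 0 = 0) (h1 : ψ 1 = 1)
    (hinv : ∀ u, φ (ψ u) = u) (x : ℝ) : liftMap φ (liftMap ψ x) = x := by
  have hx := psi_mem hm h0 h1 x
  have h2 : ⌊ψ (Int.fract x)⌋ = 0 := Int.floor_eq_zero_iff.2 ⟨hx.1, hx.2⟩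
  have h3 : Int.fract (ψ (Int.fract x)) = ψ (Int.fract x) := Int.fract_eq_self.2 hx
  have h4 : liftMap ψ x = ψ (Int.fract x) + (⌊x⌋ : ℤ) := by simp only [liftMap]; ring
  rw [h4, liftMap_add_int]
  simp only [liftMap, h2, h3, hinv]
  simp

theorem exists_phi (δ : ℝ) (h0 : 0 < δ) (h1 : δ ≤ 1 / 2) :
    ∃ φ : Equiv.Perm ℝ, StrictMono φ ∧ (∀ x (n : ℤ), φ (x + n) = φ x + n) ∧ φ 0 = 0 ∧
      φ δ = 1 - δ := by
  set a : ℝ := (1 - δ) / δ with ha
  have ha1 : 1 ≤ a := by rw [ha, le_div_iff₀ h0]; linarith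
  have ha0 : 0 < a := by linarith
  have haδ : a * δ = 1 - δ := by rw [ha]; field_simp
  let ψ : ℝ → ℝ := fun u => min (a * u) (1 - (1 - u) / a)
  let ψ' : ℝ → ℝ := fun v => max (v / a) (1 - (1 - v) * a)
  have hψ : StrictMono ψ := by
    intro u v huv
    apply min_lt_min
    · exact mul_lt_mul_of_pos_left huv ha0
    · have : (1 - v) / a < (1 - u) / a := div_lt_div_of_pos_right (by linarith) ha0
      linarith
  have hψ' : StrictMono ψ' := by
    intro u v huv
    apply max_lt_max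
    · exact div_lt_div_of_pos_right huv ha0
    · nlinarith
  have hinva : 1 / a ≤ 1 := by rw [div_le_one ha0]; exact ha1
  have hψ0 : ψ 0 = 0 := by
    simp only [ψ, mul_zero, sub_zero]; exact min_eq_left (by linarith)
  have hψ1 : ψ 1 = 1 := by
    simp only [ψ, mul_one, sub_self, zero_div, sub_zero]; exact min_eq_right ha1
  have hψ'0 : ψ' 0 = 0 := by
    simp only [ψ', zero_div, sub_zero, one_mul]; exact max_eq_left (by linarith)
  have hψ'1 : ψ' 1 = 1 := by
    simp only [ψ', sub_self, zero_mul, sub_zero]; exact max_eq_right hinva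
  have hl : ∀ u, ψ' (ψ u) = u := by
    intro u
    simp only [ψ, ψ']
    rcases le_total (a * u) (1 - (1 - u) / a) with h | h
    · rw [min_eq_left h, mul_div_cancel_left₀ _ ha0.ne']
      apply max_eq_left
      have h2 : (1 - u) / a ≤ 1 - a * u := by linarith
      rw [div_le_iff₀ ha0] at h2
      linarith
    · rw [min_eq_right h]
      have h2 : 1 - (1 - (1 - (1 - u) / a)) * a = u := by field_simp; ring
      rw [h2]
      apply max_eq_right
      rw [div_le_iff₀ ha0]; linarith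
  have hr : ∀ v, ψ (ψ' v) = v := by
    intro v
    apply hψ'.injective
    rw [hl]
  refine ⟨⟨liftMap ψ, liftMap ψ', liftMap_liftMap hψ hψ0 hψ1 hl,
    liftMap_liftMap hψ' hψ'0 hψ'1 hr⟩, liftMap_strictMono hψ hψ0 hψ1, liftMap_add_int ψ, ?_, ?_⟩
  · simp [liftMap, hψ0]
  · have h2 : ⌊δ⌋ = 0 := Int.floor_eq_zero_iff.2 ⟨h0.le, by linarith⟩
    have h3 : Int.fract δ = δ := Int.fract_eq_self.2 ⟨h0.le, by linarith⟩
    simp only [Equiv.coe_fn_mk, liftMap, h2, h3, ψ, haδ]
    have h4 : (1 - δ) / a = δ := by rw [div_eq_iff ha0.ne']; linarith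
    rw [h4]; simp

/-- The increasing bijections of the line commuting with the integer translations. -/
def lineGroup : Subgroup (Equiv.Perm ℝ) where
  carrier := {f | StrictMono f ∧ ∀ x (n : ℤ), f (x + n) = f x + n}
  one_mem' := ⟨strictMono_id, fun _ _ => rfl⟩
  mul_mem' := by
    rintro f g ⟨hf, hf'⟩ ⟨hg, hg'⟩
    exact ⟨hf.comp hg, fun x n => by simp [hg', hf']⟩
  inv_mem' := by
    rintro f ⟨hf, hf'⟩
    refine ⟨fun x y hxy => ?_, fun x n => ?_⟩
    · apply hf.lt_iff_lt.1; simpa using hxy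
    · apply f.injective; rw [hf']; simp

/-- The ping-pong model. -/
structure Model (S : Type) where
  ρ : FreeGroup S →* Equiv.Perm ℝ
  z : S × Bool → ℝ
  δ : ℝ
  κ : S × Bool → ℤ
  δ_pos : 0 < δ
  δ_lt : δ < 1
  mono : ∀ g, StrictMono (ρ g)
  per : ∀ g x (n : ℤ), ρ g (x + n) = ρ g x + n
  κ_cases : ∀ σ, κ σ = 0 ∨ κ σ = 1
  κ_add : ∀ σ, κ σ + κ (inv σ) = 1
  map_left : ∀ σ, ρ (gl σ) (z (inv σ) + κ σ - δ) = z σ
  gap : ∀ σ σ', σ ≠ σ' → ∃ n : ℤ, (n = 0 ∨ n = 1) ∧ z σ < z σ' - δ + n ∧ z σ' + n < z σ + 1 - δ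

theorem exists_model (S : Type) [Fintype S] [Nonempty S] : Nonempty (Model S) := by
  classical
  set m : ℕ := Fintype.card (S × Bool) with hm
  have hm1 : 1 ≤ m := Fintype.card_pos
  have hm1' : (1 : ℝ) ≤ m := by exact_mod_cast hm1
  set δ : ℝ := 1 / (2 * m) with hδ
  have hδ0 : 0 < δ := by positivity
  have hδm : δ * (2 * m) = 1 := by rw [hδ]; field_simp
  have hδ1 : δ ≤ 1 / 2 := by nlinarith
  obtain ⟨φ, hφ, hφp, hφ0, hφδ⟩ := exists_phi δ hδ0 hδ1
  let e := Fintype.equivFin (S × Bool)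
  let z : S × Bool → ℝ := fun σ => 2 * δ * ((e σ : ℕ) : ℝ)
  let gen : S → lineGroup := fun s =>
    ⟨Equiv.addRight (z (s, true)) * φ * Equiv.addRight (δ - z (s, false)), by
      constructor
      · intro x y hxy
        simp only [Equiv.Perm.coe_mul, Function.comp_apply, Equiv.coe_addRight]
        have := hφ (show x + (δ - z (s, false)) < y + (δ - z (s, false)) by linarith)
        linarith
      · intro x n
        simp only [Equiv.Perm.coe_mul, Function.comp_apply, Equiv.coe_addRight]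
        rw [show x + n + (δ - z (s, false)) = x + (δ - z (s, false)) + n by ring, hφp]
        ring⟩
  let ρ : FreeGroup S →* Equiv.Perm ℝ := lineGroup.subtype.comp (FreeGroup.lift gen)
  have hρ : ∀ s x, ρ (FreeGroup.of s) x = φ (x + (δ - z (s, false))) + z (s, true) := by
    intro s x; simp [ρ, gen]
  refine ⟨⟨ρ, z, δ, fun σ => if σ.2 then 0 else 1, hδ0, by linarith,
    fun g => (FreeGroup.lift gen g).2.1, fun g => (FreeGroup.lift gen g).2.2, ?_, ?_, ?_, ?_⟩⟩
  · rintro ⟨s, b⟩; cases b <;> simp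
  · rintro ⟨s, b⟩; cases b <;> simp [inv]
  · rintro ⟨s, b⟩
    cases b with
    | true =>
      rw [gl_true, hρ]
      simp [inv, hφ0]
    | false =>
      rw [gl_false, map_inv, Equiv.Perm.inv_eq_iff_eq, hρ]
      simp [inv, hφδ]; ring
  · intro σ σ' hne
    have h1 : ((e σ : ℕ) : ℝ) + 1 ≤ m := by exact_mod_cast (e σ).2
    have h2 : ((e σ' : ℕ) : ℝ) + 1 ≤ m := by exact_mod_cast (e σ').2
    have h3 : (0 : ℝ) ≤ (e σ : ℕ) := by positivity
    have h4 : (0 : ℝ) ≤ (e σ' : ℕ) := by positivity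
    have hne' : (e σ : ℕ) ≠ (e σ' : ℕ) := fun h => hne (e.injective (Fin.ext h))
    rcases lt_or_gt_of_ne hne' with h | h
    · have h5 : ((e σ : ℕ) : ℝ) + 1 ≤ (e σ' : ℕ) := by exact_mod_cast h
      refine ⟨0, Or.inl rfl, ?_, ?_⟩ <;> simp only [z] <;> push_cast <;> nlinarith
    · have h5 : ((e σ' : ℕ) : ℝ) + 1 ≤ (e σ : ℕ) := by exact_mod_cast h
      refine ⟨1, Or.inr rfl, ?_, ?_⟩ <;> simp only [z] <;> push_cast <;> nlinarith

namespace Model

variable {S : Type} (M : Model S)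

theorem map_right (σ : S × Bool) : M.ρ (gl σ) (M.z (inv σ)) = M.z σ - M.δ + M.κ (inv σ) := by
  have h := M.map_left (inv σ)
  rw [inv_inv'] at h
  rw [← h, rho_apply_inv]; ring

/-- The attracting set of a letter. -/
def A (σ : S × Bool) : Set ℝ := {x | ∃ n : ℤ, M.z σ - M.δ + n ≤ x ∧ x < M.z σ + n}

theorem pingpong (σ : S × Bool) (x : ℝ) (hx : x ∉ M.A (inv σ)) : M.ρ (gl σ) x ∈ M.A σ := by
  set n := ⌊x - M.z (inv σ)⌋ with hn
  have h1 : (n : ℝ) ≤ x - M.z (inv σ) := Int.floor_le _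
  have h2 : x - M.z (inv σ) < n + 1 := Int.lt_floor_add_one _
  have h3 : x < M.z (inv σ) - M.δ + (n + 1) := by
    by_contra h
    exact hx ⟨n + 1, by push_cast; linarith, by push_cast; linarith⟩
  have hk : (M.κ σ : ℝ) + M.κ (inv σ) = 1 := by exact_mod_cast M.κ_add σ
  refine ⟨n + M.κ (inv σ), ?_, ?_⟩
  · have := (M.mono (gl σ)).monotone (show M.z (inv σ) + n ≤ x by linarith)
    rw [M.per, M.map_right] at this
    push_cast; linarith
  · have := M.mono (gl σ) (show x < M.z (inv σ) + M.κ σ - M.δ + ((n + 1 - M.κ σ : ℤ) : ℝ) by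
      push_cast; linarith)
    rw [M.per, M.map_left] at this
    push_cast at this ⊢; linarith

theorem A_disjoint {σ σ' : S × Bool} (h : σ ≠ σ') {x : ℝ} (h1 : x ∈ M.A σ) (h2 : x ∈ M.A σ') :
    False := by
  obtain ⟨n, -, h3, h4⟩ := M.gap σ σ' h
  obtain ⟨a, ha, ha'⟩ := h1
  obtain ⟨b, hb, hb'⟩ := h2
  have h5 : ((b - a - n : ℤ) : ℝ) < 0 := by push_cast; linarith
  have h6 : (-1 : ℝ) < ((b - a - n : ℤ) : ℝ) := by push_cast; linarith
  have h7 : (b - a - n : ℤ) < 0 := by exact_mod_cast h5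
  have h8 : (-1 : ℤ) < (b - a - n : ℤ) := by exact_mod_cast h6
  omega

theorem neutral (σ τ : S × Bool) (l : ℤ) : M.z σ + l ∉ M.A τ := by
  rintro ⟨n, h1, h2⟩
  have := M.δ_pos
  have := M.δ_lt
  by_cases h : τ = σ
  · subst h
    have h5 : ((l - n : ℤ) : ℝ) < 0 := by push_cast; linarith
    have h6 : (-1 : ℝ) < ((l - n : ℤ) : ℝ) := by push_cast; linarith
    have h7 : (l - n : ℤ) < 0 := by exact_mod_cast h5
    have h8 : (-1 : ℤ) < (l - n : ℤ) := by exact_mod_cast h6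
    omega
  · obtain ⟨k, -, h3, h4⟩ := M.gap τ σ h
    have h5 : ((l - n - k : ℤ) : ℝ) < 0 := by push_cast; linarith
    have h6 : (-1 : ℝ) < ((l - n - k : ℤ) : ℝ) := by push_cast; linarith
    have h7 : (l - n - k : ℤ) < 0 := by exact_mod_cast h5
    have h8 : (-1 : ℤ) < (l - n - k : ℤ) := by exact_mod_cast h6
    omega

theorem word_mem (x : ℝ) (hx : ∀ τ, x ∉ M.A τ) : ∀ (L : List (S × Bool)) (σ : S × Bool),
    FreeGroup.IsReduced (σ :: L) → M.ρ (FreeGroup.mk (σ :: L)) x ∈ M.A σ := by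
  intro L
  induction L with
  | nil => intro σ _; exact M.pingpong σ x (hx _)
  | cons τ L ih =>
    intro σ h
    rw [FreeGroup.isReduced_cons_cons] at h
    rw [mk_cons, map_mul, Equiv.Perm.mul_apply]
    apply M.pingpong
    intro h2
    refine M.A_disjoint ?_ (ih τ h.2) h2
    intro h3
    have h4 := h.1 (by rw [h3]; rfl)
    rw [h3] at h4
    simp [inv] at h4

/-- The point of the line attached to a group element, a letter and a period. -/
def pt (p : FreeGroup S × ((S × Bool) × ℕ)) : ℝ := M.ρ p.1 (M.z p.2.1 + p.2.2)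

theorem pt_act (g : FreeGroup S) (p : FreeGroup S × ((S × Bool) × ℕ)) :
    M.pt (act g p) = M.ρ g (M.pt p) := by
  simp [pt, act]

theorem pt_injective [DecidableEq S] : Function.Injective M.pt := by
  rintro ⟨w, σ, l⟩ ⟨w', σ', l'⟩ h
  simp only [pt] at h
  have h1 : M.ρ (w'⁻¹ * w) (M.z σ + l) = M.z σ' + l' := by
    rw [map_mul, Equiv.Perm.mul_apply, h]; simp
  have hred := FreeGroup.isReduced_toWord (x := w'⁻¹ * w)
  cases hw : (w'⁻¹ * w).toWord with
  | nil =>
    have h2 : w'⁻¹ * w = 1 := FreeGroup.toWord_eq_nil_iff.1 hw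
    rw [h2] at h1
    simp only [map_one, Equiv.Perm.coe_one, id_eq] at h1
    have h3 : w = w' := (inv_mul_eq_one.1 h2).symm
    have h4 : σ = σ' := by
      by_contra hne
      obtain ⟨k, -, h3, h4⟩ := M.gap σ σ' hne
      have := M.δ_pos
      have h5 : (((l' : ℤ) - l - k : ℤ) : ℝ) < 0 := by push_cast; linarith
      have h6 : (-1 : ℝ) < (((l' : ℤ) - l - k : ℤ) : ℝ) := by push_cast; linarith
      have h7 : ((l' : ℤ) - l - k : ℤ) < 0 := by exact_mod_cast h5
      have h8 : (-1 : ℤ) < ((l' : ℤ) - l - k : ℤ) := by exact_mod_cast h6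
      omega
    subst h4
    have h5 : l = l' := by exact_mod_cast (add_left_cancel h1)
    rw [h3, h5]
  | cons τ L =>
    exfalso
    rw [hw] at hred
    have h2 := M.word_mem (M.z σ + ((l : ℤ) : ℝ)) (fun τ => M.neutral σ τ l) L τ hred
    rw [← hw, FreeGroup.mk_toWord] at h2
    push_cast at h2
    rw [h1] at h2
    exact M.neutral σ' τ l' (by push_cast; exact h2)

end Model

end Crest.Agent.R140
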