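import Crest.Agent.R140.Comb

/-! Spaces of a fixed nontrivial Markov type do not contain arbitrarily long James sequences. -/

set_option autoImplicit false

namespace Crest.Agent.R140

open Finset Crest.AnalysisR

universe u

theorem exists_time (p a B : ℝ) (hp : 1 < p) (ha : 0 < a) :
    ∃ T : ℕ, 1 ≤ T ∧ B * T < 1 / 2 * (a * T) ^ p := by
  have h1 := (tendsto_rpow_atTop (show 0 < p - 1 by linarith)).comp tendsto_natCast_atTop_atTop
  have hap : 0 < a ^ p := Real.rpow_pos_of_pos ha p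
  obtain ⟨T, hT1, hT2⟩ := ((h1.eventually_gt_atTop (2 * B / a ^ p)).and
    (Filter.eventually_ge_atTop 1)).exists
  refine ⟨T, hT2, ?_⟩
  have hT0 : (0 : ℝ) < T := by exact_mod_cast hT2
  simp only [Function.comp_apply] at hT1
  rw [div_lt_iff₀ hap] at hT1
  rw [Real.mul_rpow ha.le hT0.le]
  have h2 : (T : ℝ) ^ p = (T : ℝ) ^ (p - 1) * T := by
    rw [← Real.rpow_add_one hT0.ne']; ring_nf
  rw [h2]
  nlinarith

theorem no_james (p K θ : ℝ) (hp : 1 < p) (hK : 0 < K) (hθ : 0 < θ) :
    ¬ ∀ n, Nonempty (JS.{u} p K θ n) := by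
  intro hall
  let R : ℕ → ℝ → Prop := fun k r => ∀ n, ∃ J : JS.{u} p K θ n, AltLe J k r
  have hup : ∀ k r r', r ≤ r' → R k r → R k r' := by
    intro k r r' h hr n
    obtain ⟨J, hJ⟩ := hr n
    exact ⟨J, fun s hs hsn => (hJ s hs hsn).trans h⟩
  have hR0 : ∀ k : ℕ, R k (2 * k) := by
    intro k n
    obtain ⟨J⟩ := hall n
    have := altLe_add J (altLe_zero J) k
    rw [zero_add, zero_add] at this
    exact ⟨J, this⟩
  by_cases hb : ∃ C, ∀ k, R k C
  · obtain ⟨C, hC⟩ := hb
    obtain ⟨T, hT, hT'⟩ := exists_time p (θ / 2) (K ^ p * |C| ^ p) hp (by linarith)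
    obtain ⟨n, hn⟩ := comb.{u} p K θ (by linarith) hK T 1 hT le_rfl
    obtain ⟨J, hJ⟩ := hup _ _ _ (le_abs_self C) (hC (1 + 2 * (T + 1))) n
    have := hn J |C| (θ / 2 * T) (abs_nonneg C) (by positivity) hJ (Or.inl (by linarith))
    linarith
  · push Not at hb
    obtain ⟨T, hT, hT'⟩ := exists_time p (1 / 4) (K ^ p * 2 ^ p) hp (by norm_num)
    set e : ℕ := 2 * (T + 1) with he
    have he0 : (0 : ℝ) < e := by rw [he]; positivity
    obtain ⟨k, hk⟩ := hb (8 * e)
    have hk1 : 1 ≤ k := by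
      by_contra h
      have h0 : k = 0 := by omega
      subst h0
      exact hk (hup _ _ _ (by simp) (hR0 0))
    have hex : ∃ r, R k r ∧ ¬ R k (r / 2) := by
      by_contra hcon
      push Not at hcon
      have h1 : ∀ i : ℕ, R k (2 * k * (1 / 2) ^ i) := by
        intro i
        induction i with
        | zero => simpa using hR0 k
        | succ i ih =>
          have := hcon _ ih
          rwa [show (2 * k * (1 / 2) ^ i / 2 : ℝ) = 2 * k * (1 / 2) ^ (i + 1) by ring] at this
      have hk0 : (0 : ℝ) < 2 * k := by positivity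
      obtain ⟨i, hi⟩ := exists_pow_lt_of_lt_one (show 0 < 8 * e / (2 * k : ℝ) by positivity)
        (show (1 / 2 : ℝ) < 1 by norm_num)
      rw [lt_div_iff₀ hk0] at hi
      exact hk (hup _ _ _ (by linarith) (h1 i))
    obtain ⟨r, hr, hr'⟩ := hex
    have hre : 8 * (e : ℝ) ≤ r := by
      by_contra h
      exact hk (hup _ _ _ (by linarith) hr)
    have hr0 : 0 < r := by linarith
    obtain ⟨n, hn⟩ := comb.{u} p K θ (by linarith) hK T k hT hk1
    obtain ⟨J, hJ, hJ'⟩ := blocks k r hr hr' T hT n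
    have hT0 : (0 : ℝ) < T := by exact_mod_cast hT
    have := hn J (2 * r) (1 / 4 * T * r) (by positivity) (by positivity)
      (fun s hs hsn => (altLe_add J hJ e s hs hsn).trans (by linarith))
      (Or.inr fun t ht htn => le_trans (by rw [← he]; nlinarith) (hJ' t ht htn))
    rw [Real.mul_rpow (by positivity) hr0.le, Real.mul_rpow (by norm_num : (0 : ℝ) ≤ 2) hr0.le]
      at this
    have hrp : 0 < r ^ p := Real.rpow_pos_of_pos hr0 p
    nlinarith

end Crest.Agent.R140
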