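import Crest.Agent.R140.Amen

/-! Every finite piece of an order preserving free action of a free group is seen, with the same
order, in an action with Følner sets (an iterated wreath-type extension of the trivial action). -/

set_option autoImplicit false

namespace Crest.Agent.R140

open Finset

variable {S : Type} [DecidableEq S]

theorem toWord_gl_mul (σ : S × Bool) (w : FreeGroup S) :
    (gl σ * w).toWord = σ :: w.toWord ∨ w.toWord = inv σ :: (gl σ * w).toWord := by
  have h1 : (gl σ * w).toWord = FreeGroup.reduce (σ :: w.toWord) := by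
    conv_lhs => rw [← FreeGroup.mk_toWord (x := w), ← mk_cons, FreeGroup.toWord_mk]
  rw [h1, FreeGroup.reduce.cons, FreeGroup.reduce_toWord]
  cases hw : w.toWord with
  | nil => left; rfl
  | cons hd tl =>
    by_cases h : σ.1 = hd.1 ∧ σ.2 = !hd.2
    · right
      simp only [h, and_self, if_true]
      congr 1
      obtain ⟨s, b⟩ := σ
      obtain ⟨s', b'⟩ := hd
      simp only at h
      simp [inv, h.1, h.2]
    · left
      simp only [h, if_false]

theorem toWord_gl (σ : S × Bool) : (gl σ).toWord = [σ] := by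
  simp [gl, FreeGroup.toWord_mk]

theorem gl_ne_one (σ : S × Bool) : gl σ ≠ 1 := by
  intro h
  have := toWord_gl σ
  rw [h] at this
  simp at this

/-- Left multiplication on the first coordinate. -/
def act {Λ : Type} (g : FreeGroup S) (p : FreeGroup S × Λ) : FreeGroup S × Λ := (g * p.1, p.2)

omit [DecidableEq S] in
theorem act_inv_act {Λ : Type} (σ : S × Bool) (p : FreeGroup S × Λ) :
    act (gl (inv σ)) (act (gl σ) p) = p := by
  simp [act, gl_inv]

omit [DecidableEq S] in
theorem act_act_inv {Λ : Type} (σ : S × Bool) (p : FreeGroup S × Λ) :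
    act (gl σ) (act (gl (inv σ)) p) = p := by
  simp [act, gl_inv]

omit [DecidableEq S] in
theorem rho_inv_apply {V : Type} (ρ : FreeGroup S →* Equiv.Perm V) (σ : S × Bool) (v : V) :
    ρ (gl (inv σ)) (ρ (gl σ) v) = v := by
  simp [gl_inv]

omit [DecidableEq S] in
theorem rho_apply_inv {V : Type} (ρ : FreeGroup S →* Equiv.Perm V) (σ : S × Bool) (v : V) :
    ρ (gl σ) (ρ (gl (inv σ)) v) = v := by
  simp [gl_inv]

omit [DecidableEq S] in
theorem extInc_inv {V A : Type} [AddCommGroup A] (ρ : FreeGroup S →* Equiv.Perm V)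
    (α : S → V → A) (σ : S × Bool) (v : V) :
    extInc ρ α (inv σ) (ρ (gl σ) v) = - extInc ρ α σ v := by
  obtain ⟨s, b⟩ := σ
  cases b with
  | true =>
    have := rho_inv_apply ρ (s, true) v
    simp only [inv, Bool.not_true] at this
    simp [extInc, inv, this]
  | false => simp [extInc, inv]

/-- The correction terms, propagated along the geodesic towards the root `m`. -/
noncomputable def corr {Λ V A : Type} [AddCommGroup A] (ρ : FreeGroup S →* Equiv.Perm V)
    (β : S × Bool → V → A) (Ω₁ : Set (FreeGroup S × Λ)) (m : FreeGroup S) (lam : Λ) :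
    List (S × Bool) → V → A
  | [], _ => 0
  | σ :: l, v => by
    classical
    exact if (FreeGroup.mk l * m, lam) ∈ Ω₁ then
      corr ρ β Ω₁ m lam l (ρ (gl (inv σ)) v) - β σ (ρ (gl (inv σ)) v) else 0

theorem ordered_ext [Fintype S] {Λ : Type} (π : FreeGroup S × Λ → ℝ) (hπ : Function.Injective π)
    (hinv : ∀ σ p q, π p < π q → π (act (gl σ) p) < π (act (gl σ) q))
    (Ω₀ : Finset (FreeGroup S × Λ)) :
    ∃ (V W : Type) (_ : LinearOrder W) (_ : DecidableEq V) (ρ : FreeGroup S →* Equiv.Perm V)
      (x : FreeGroup S × Λ → V → W),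
      (∀ ε : ℝ, 0 < ε → ∃ U : Finset V, IsFolner ρ ε U) ∧
      (∀ v, ∀ p ∈ Ω₀, ∀ q ∈ Ω₀, π p < π q → x p v < x q v) ∧
      (∀ v σ, ∀ p ∈ Ω₀, act (gl σ) p ∈ Ω₀ → x (act (gl σ) p) (ρ (gl σ) v) = x p v) := by
  classical
  induction Ω₀ using Finset.induction_on_max_value π with
  | empty =>
    refine ⟨Unit, Unit, inferInstance, inferInstance, 1, fun _ _ => (), ?_, by simp, by simp⟩
    intro ε hε
    refine ⟨univ, univ_nonempty, fun σ => ?_⟩
    simp [hε.le]
  | insert m Ω₁ hm hmax ih =>
    obtain ⟨V, W, _, _, ρ, L, hF, hmono, heq⟩ := ih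
    have hlt : ∀ p ∈ Ω₁, π p < π m := fun p hp =>
      lt_of_le_of_ne (hmax p hp) (fun h => hm (hπ h ▸ hp))
    let α : S → V → (W →₀ ℤ) := fun s v =>
      if act (gl (s, true)) m ∈ Ω₁ then
        Finsupp.single (L (act (gl (s, true)) m) (ρ (gl (s, true)) v)) 1
      else if act (gl (s, false)) m ∈ Ω₁ then - Finsupp.single (L (act (gl (s, false)) m) v) 1
      else 0
    let β := extInc ρ α
    -- support of the increments along edges inside `Ω₁`
    have hβ1 : ∀ s, ∀ p ∈ Ω₁, act (gl (s, true)) p ∈ Ω₁ → ∀ v i, i ≤ L p v → α s v i = 0 := by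
      intro s p hp hp' v i hi
      simp only [α]
      split_ifs with h1 h2
      · have h3 := hmono (ρ (gl (s, true)) v) _ hp' _ h1 (hinv _ _ _ (hlt p hp))
        rw [heq v _ p hp hp'] at h3
        exact Finsupp.single_eq_of_ne (ne_of_lt (lt_of_le_of_lt hi h3))
      · have h4 := hinv (s, false) _ _ (hlt _ hp')
        have h5 : act (gl (s, false)) (act (gl (s, true)) p) = p := act_inv_act (s, true) p
        rw [h5] at h4
        have h3 := hmono v _ hp _ h2 h4
        rw [Finsupp.neg_apply, Finsupp.single_eq_of_ne (ne_of_lt (lt_of_le_of_lt hi h3)), neg_zero]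
      · rfl
    have hβ : ∀ σ, ∀ p ∈ Ω₁, act (gl σ) p ∈ Ω₁ → ∀ v i, i ≤ L p v → β σ v i = 0 := by
      rintro ⟨s, b⟩ p hp hp' v i hi
      cases b with
      | true => exact hβ1 s p hp hp' v i hi
      | false =>
        have h5 : act (gl (s, true)) (act (gl (s, false)) p) = p := act_act_inv (s, true) p
        have := hβ1 s _ hp' (by rw [h5]; exact hp) (ρ (gl (s, false)) v) i
          (by rw [heq v _ p hp hp']; exact hi)
        simp [β, extInc, this]
    have hβm : ∀ σ, act (gl σ) m ∈ Ω₁ → ∀ v,
        β σ v = Finsupp.single (L (act (gl σ) m) (ρ (gl σ) v)) 1 := by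
      rintro ⟨s, b⟩ h v
      cases b with
      | true => simp [β, extInc, α, h]
      | false =>
        have h1 : act (gl (s, true)) m ∉ Ω₁ := by
          intro h1
          have h2 := hinv (s, true) _ _ (hlt _ h)
          have h5 : act (gl (s, true)) (act (gl (s, false)) m) = m := act_act_inv (s, true) m
          rw [h5] at h2
          exact lt_asymm h2 (hlt _ h1)
        simp [β, extInc, α, h, h1]
    let Ξ := corr ρ β (Ω₁ : Set (FreeGroup S × Λ)) m.1
    have hΞ : ∀ lam l, (FreeGroup.mk l * m.1, lam) ∈ Ω₁ → ∀ v i,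
        i ≤ L (FreeGroup.mk l * m.1, lam) v → Ξ lam l v i = 0 := by
      intro lam l
      induction l with
      | nil => intro _ v i _; simp [Ξ, corr]
      | cons σ l ihl =>
        intro hp v i hi
        simp only [Ξ, corr]
        split_ifs with h1
        · have h1' : (FreeGroup.mk l * m.1, lam) ∈ Ω₁ := h1
          have h2 : (FreeGroup.mk (σ :: l) * m.1, lam) =
              act (gl σ) (FreeGroup.mk l * m.1, lam) := by
            simp [act, mk_cons, mul_assoc]
          rw [h2] at hp hi
          have h3 := heq (ρ (gl (inv σ)) v) σ _ h1' hp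
          rw [rho_apply_inv] at h3
          rw [h3] at hi
          have h4 := ihl h1' _ i hi
          have h5 := hβ σ _ h1' hp _ i hi
          simp only [Ξ] at h4
          rw [Finsupp.sub_apply, h4, h5, sub_zero]
        · rfl
    let ξ : FreeGroup S × Λ → V → (W →₀ ℤ) := fun p v => Ξ p.2 (p.1 * m.1⁻¹).toWord v
    have hξ : ∀ p ∈ Ω₁, ∀ v i, i ≤ L p v → ξ p v i = 0 := by
      intro p hp v i hi
      have h1 : (FreeGroup.mk (p.1 * m.1⁻¹).toWord * m.1, p.2) = p := by
        simp [FreeGroup.mk_toWord]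
      exact hΞ p.2 _ (by rw [h1]; exact hp) v i (by rw [h1]; exact hi)
    have hξe1 : ∀ σ, ∀ p ∈ Ω₁, (gl σ * (p.1 * m.1⁻¹)).toWord = σ :: (p.1 * m.1⁻¹).toWord →
        ∀ v, ξ (act (gl σ) p) (ρ (gl σ) v) + β σ v = ξ p v := by
      intro σ p hp hw v
      have h1 : (FreeGroup.mk (p.1 * m.1⁻¹).toWord * m.1, p.2) = p := by
        simp [FreeGroup.mk_toWord]
      simp only [ξ, act, mul_assoc, hw, Ξ, corr, h1]
      rw [if_pos (mem_coe.2 hp), rho_inv_apply]
      abel
    have hξe : ∀ σ, ∀ p ∈ Ω₁, act (gl σ) p ∈ Ω₁ →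
        ∀ v, ξ (act (gl σ) p) (ρ (gl σ) v) + β σ v = ξ p v := by
      intro σ p hp hp' v
      rcases toWord_gl_mul σ (p.1 * m.1⁻¹) with h | h
      · exact hξe1 σ p hp h v
      · have h2 := hξe1 (inv σ) _ hp' (by
          simp only [act, mul_assoc, gl_inv, inv_mul_cancel_left]
          exact h) (ρ (gl σ) v)
        rw [act_inv_act, rho_inv_apply] at h2
        rw [← h2]
        have h3 : β (inv σ) (ρ (gl σ) v) = - β σ v := extInc_inv ρ α σ v
        rw [h3]; abel
    have hξm : ∀ σ v, ξ (act (gl σ) m) v = 0 := by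
      intro σ v
      have h1 : (FreeGroup.mk ([] : List (S × Bool)) * m.1, m.2) = m := by
        rw [← FreeGroup.one_eq_mk]; simp
      simp only [ξ, act, mul_assoc, mul_inv_cancel, mul_one, toWord_gl, Ξ, corr, h1]
      rw [if_neg (fun h => hm (mem_coe.1 h))]
    let x : FreeGroup S × Λ → V × (W →₀ ℤ) → Lex (W →₀ ℤ) := fun p q =>
      if p = m then toLex q.2 else toLex (q.2 + ξ p q.1 - Finsupp.single (L p q.1) 1)
    have hne : ∀ p ∈ Ω₁, p ≠ m := fun p hp h => hm (h ▸ hp)
    have hxm : ∀ σ, act (gl σ) m ∈ Ω₁ → ∀ q, x (act (gl σ) m) (extHom ρ α (gl σ) q) = x m q := by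
      intro σ h q
      simp only [x, if_neg (hne _ h), if_true, extHom_gl, hξm]
      have : extInc ρ α σ q.1 = _ := hβm σ h q.1
      rw [this]; simp
    refine ⟨V × (W →₀ ℤ), Lex (W →₀ ℤ), inferInstance, inferInstance, extHom ρ α, x, ?_, ?_, ?_⟩
    · intro ε hε
      obtain ⟨U, hU⟩ := hF (ε / 2) (by linarith)
      obtain ⟨Y, hY⟩ := ext_folner ρ α (ε / 2) (ε / 2) (by linarith) U hU
      rw [add_halves] at hY
      exact ⟨_, hY⟩
    · rintro ⟨v, y⟩ p hp0 q hq0 hpq
      rcases mem_insert.1 hp0 with rfl | hp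
      · exfalso
        rcases mem_insert.1 hq0 with rfl | hq
        · exact lt_irrefl _ hpq
        · exact lt_asymm hpq (hlt q hq)
      rcases mem_insert.1 hq0 with rfl | hq
      · simp only [x, if_neg (hne p hp), if_true]
        refine Finsupp.Lex.lt_iff.2 ⟨L p v, fun j hj => ?_, ?_⟩
        · simp [hξ p hp v j hj.le, Finsupp.single_eq_of_ne (ne_of_lt hj)]
        · simp [hξ p hp v _ le_rfl]
      · have h1 := hmono v p hp q hq hpq
        simp only [x, if_neg (hne p hp), if_neg (hne q hq)]
        refine Finsupp.Lex.lt_iff.2 ⟨L p v, fun j hj => ?_, ?_⟩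
        · simp [hξ p hp v j hj.le, Finsupp.single_eq_of_ne (ne_of_lt hj),
            hξ q hq v j (hj.trans h1).le, Finsupp.single_eq_of_ne (ne_of_lt (hj.trans h1))]
        · simp [hξ p hp v _ le_rfl, hξ q hq v _ h1.le, Finsupp.single_eq_of_ne (ne_of_lt h1)]
    · intro q σ p hp hp'
      rcases mem_insert.1 hp with rfl | hp
      · rcases mem_insert.1 hp' with h | h
        · exfalso
          have := congrArg Prod.fst h
          simp only [act, mul_eq_right] at this
          exact gl_ne_one σ this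
        · exact hxm σ h q
      rcases mem_insert.1 hp' with h | h
      · have h1 : act (gl (inv σ)) m = p := by rw [← h, act_inv_act]
        have h2 := hxm (inv σ) (by rw [h1]; exact hp) (extHom ρ α (gl σ) q)
        rw [h1, rho_inv_apply] at h2
        rw [h, h2]
      · simp only [x, if_neg (hne p hp), if_neg (hne _ h), extHom_gl, heq q.1 σ p hp h]
        rw [← hξe σ p hp h q.1]
        congr 1
        simp only [β]; abel

end Crest.Agent.R140
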