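import Mathlib

/-! Finite hypergraph Ramsey theorem (two colours), for subsets and for increasing tuples. -/

set_option autoImplicit false

namespace Crest.Agent.R140

open Finset

theorem ramsey_sets (r : ℕ) : ∀ n : ℕ, ∃ N : ℕ, ∀ (c : Finset ℕ → Bool) (A : Finset ℕ),
    N ≤ A.card → ∃ H ⊆ A, n ≤ H.card ∧ ∃ b : Bool, ∀ B ⊆ H, B.card = r → c B = b := by
  induction r with
  | zero =>
    intro n
    refine ⟨n, fun c A hA => ⟨A, Subset.rfl, hA, c ∅, fun B _ hB => ?_⟩⟩
    rw [Finset.card_eq_zero.1 hB]
  | succ r ih =>
    have Q : ∀ m : ℕ, ∃ N : ℕ, ∀ (c : Finset ℕ → Bool) (A : Finset ℕ), N ≤ A.card →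
        ∃ E ⊆ A, m ≤ E.card ∧ ∃ col : ℕ → Bool, ∀ a ∈ E, ∀ B ⊆ E, B.card = r →
          (∀ x ∈ B, a < x) → c (insert a B) = col a := by
      intro m
      induction m with
      | zero =>
        exact ⟨0, fun c A _ => ⟨∅, empty_subset _, le_rfl, fun _ => true, by simp⟩⟩
      | succ m ihm =>
        obtain ⟨Nm, hNm⟩ := ihm
        obtain ⟨N', hN'⟩ := ih Nm
        refine ⟨N' + 1, fun c A hA => ?_⟩
        have hne : A.Nonempty := card_pos.1 (by omega)
        set a := A.min' hne with ha
        have haA : a ∈ A := A.min'_mem hne
        obtain ⟨H, hHA, hHc, b, hb⟩ := hN' (fun B => c (insert a B)) (A.erase a)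
          (by rw [card_erase_of_mem haA]; omega)
        obtain ⟨E, hEH, hEc, col, hcol⟩ := hNm c H hHc
        have hlt : ∀ x ∈ E, a < x := by
          intro x hx
          have h1 := mem_erase.1 (hHA (hEH hx))
          exact lt_of_le_of_ne (A.min'_le x h1.2) (Ne.symm h1.1)
        have haE : a ∉ E := fun h => lt_irrefl _ (hlt a h)
        refine ⟨insert a E, ?_, ?_, Function.update col a b, ?_⟩
        · intro x hx
          rcases mem_insert.1 hx with rfl | hx
          · exact haA
          · exact (mem_erase.1 (hHA (hEH hx))).2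
        · rw [card_insert_of_notMem haE]; omega
        · intro a' ha' B hB hBc hBlt
          rcases mem_insert.1 ha' with rfl | ha'
          · rw [Function.update_self]
            apply hb B _ hBc
            intro x hx
            rcases mem_insert.1 (hB hx) with h | h
            · exact absurd (hBlt x hx) (by rw [h]; exact lt_irrefl _)
            · exact hEH h
          · have hne' : a' ≠ a := fun h => haE (h ▸ ha')
            rw [Function.update_of_ne hne']
            apply hcol a' ha' B _ hBc hBlt
            intro x hx
            rcases mem_insert.1 (hB hx) with h | h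
            · exfalso
              have h1 := hBlt x hx
              have h2 := hlt a' ha'
              omega
            · exact h
    intro n
    obtain ⟨N, hN⟩ := Q (2 * n)
    refine ⟨N, fun c A hA => ?_⟩
    obtain ⟨E, hEA, hEc, col, hcol⟩ := hN c A hA
    have hsplit := Finset.card_filter_add_card_filter_not (s := E) (fun x => col x = true)
    have key : ∃ b : Bool, n ≤ (E.filter (fun x => col x = b)).card := by
      by_cases h : n ≤ (E.filter (fun x => col x = true)).card
      · exact ⟨true, h⟩
      · refine ⟨false, ?_⟩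
        have : (E.filter (fun x => col x = false)) = E.filter (fun x => ¬ col x = true) := by
          congr 1; ext x; simp
        rw [this]; omega
    obtain ⟨b, hb⟩ := key
    refine ⟨E.filter (fun x => col x = b), (filter_subset _ _).trans hEA, hb, b, ?_⟩
    intro B hB hBc
    have hne : B.Nonempty := card_pos.1 (by omega)
    set a := B.min' hne with ha
    have haB : a ∈ B := B.min'_mem hne
    have h1 := mem_filter.1 (hB haB)
    have := hcol a h1.1 (B.erase a)
      ((erase_subset _ _).trans (hB.trans (filter_subset _ _)))
      (by rw [card_erase_of_mem haB]; omega)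
      (fun x hx => by
        have h2 := mem_erase.1 hx
        exact lt_of_le_of_ne (B.min'_le x h2.2) (Ne.symm h2.1))
    rw [insert_erase haB] at this
    rw [this, h1.2]

/-- Ramsey's theorem for strictly increasing tuples indexed by a finite linear order. -/
theorem ramsey_tuples (J : Type) [Fintype J] [LinearOrder J] (n : ℕ) :
    ∃ N : ℕ, ∀ c : (J → ℕ) → Prop, ∃ h : ℕ → ℕ, (∀ i j, i < j → j < n → h i < h j) ∧
      (∀ i < n, h i < N) ∧
      ((∀ t : J → ℕ, StrictMono t → (∀ q, t q < n) → c (h ∘ t)) ∨
       (∀ t : J → ℕ, StrictMono t → (∀ q, t q < n) → ¬ c (h ∘ t))) := by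
  classical
  obtain ⟨N, hN⟩ := ramsey_sets (Fintype.card J) n
  refine ⟨N, fun c => ?_⟩
  obtain ⟨H, hHA, hHc, b, hb⟩ := hN
    (fun B => decide (∃ t : J → ℕ, StrictMono t ∧ univ.image t = B ∧ c t)) (range N) (by simp)
  let e := H.orderEmbOfFin rfl
  let h : ℕ → ℕ := fun i => if hi : i < H.card then e ⟨i, hi⟩ else 0
  have hmono : ∀ i j, i < j → j < n → h i < h j := by
    intro i j hij hj
    have hj' : j < H.card := by omega
    have hi' : i < H.card := by omega
    simp only [h, dif_pos hj', dif_pos hi']
    exact e.strictMono (by exact hij)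
  have hmem : ∀ i < n, h i ∈ H := by
    intro i hi
    have hi' : i < H.card := by omega
    simp only [h, dif_pos hi']
    exact H.orderEmbOfFin_mem rfl _
  have key : ∀ t : J → ℕ, StrictMono t → (∀ q, t q < n) → (c (h ∘ t) ↔ b = true) := by
    intro t ht htn
    have hsm : StrictMono (h ∘ t) := fun q q' hq => hmono _ _ (ht hq) (htn q')
    have h1 := hb (univ.image (h ∘ t))
      (by
        intro x hx
        obtain ⟨q, -, rfl⟩ := mem_image.1 hx
        exact hmem _ (htn q))
      (by rw [card_image_of_injective _ hsm.injective, card_univ])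
    rw [← h1, decide_eq_true_iff]
    constructor
    · intro hc; exact ⟨_, hsm, rfl, hc⟩
    · rintro ⟨t', ht', him, hc⟩
      have : t' = h ∘ t := by
        rw [← ht'.range_inj hsm, ← Set.image_univ, ← Set.image_univ, ← coe_univ,
          ← coe_image, ← coe_image, him]
      rwa [← this]
  refine ⟨h, hmono, fun i hi => mem_range.1 (hHA (hmem i hi)), ?_⟩
  cases b with
  | true => exact Or.inl fun t ht htn => (key t ht htn).2 rfl
  | false => exact Or.inr fun t ht htn hc => by simpa using (key t ht htn).1 hc

end Crest.Agent.R140
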