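import Crest.Agent.R140.James

/-! If all derived sets of the unit ball die out, the space has an equivalent uniformly convex
norm. -/

set_option autoImplicit false

namespace Crest.Agent.R140

open Finset Crest.AnalysisR Metric

universe u

variable {X : Type u} [NormedAddCommGroup X] [NormedSpace ℝ X]

theorem infDist_convex {C : Set X} (hC : Convex ℝ C) (x y : X) {a b : ℝ} (ha : 0 ≤ a) (hb : 0 ≤ b)
    (hab : a + b = 1) : infDist (a • x + b • y) C ≤ a * infDist x C + b * infDist y C := by
  rcases C.eq_empty_or_nonempty with rfl | hne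
  · simp
  refine le_of_forall_pos_le_add fun η hη => ?_
  obtain ⟨x', hx', h1⟩ := (infDist_lt_iff hne).1 (lt_add_of_pos_right (infDist x C) hη)
  obtain ⟨y', hy', h2⟩ := (infDist_lt_iff hne).1 (lt_add_of_pos_right (infDist y C) hη)
  refine (infDist_le_dist_of_mem (hC hx' hy' ha hb hab)).trans ?_
  rw [dist_eq_norm] at h1 h2 ⊢
  have h3 : a • x + b • y - (a • x' + b • y') = a • (x - x') + b • (y - y') := by
    simp only [smul_sub]; abel
  rw [h3]
  refine (norm_add_le _ _).trans ?_
  rw [norm_smul, norm_smul, Real.norm_of_nonneg ha, Real.norm_of_nonneg hb]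
  have h4 := mul_le_mul_of_nonneg_left h1.le ha
  have h5 := mul_le_mul_of_nonneg_left h2.le hb
  have h6 : a * η + b * η = η := by rw [← add_mul, hab, one_mul]
  linarith

theorem infDist_dset_neg (ε : ℝ) (j : ℕ) (x : X) :
    infDist (-x) (dset X ε j) ≤ infDist x (dset X ε j) := by
  rcases (dset X ε j).eq_empty_or_nonempty with h | hne
  · simp [h]
  refine (le_infDist hne).2 fun y hy => ?_
  refine (infDist_le_dist_of_mem (dset_neg ε j y hy)).trans ?_
  rw [dist_neg_neg]

theorem infDist_dset_le (ε : ℝ) (j : ℕ) (x : X) : infDist x (dset X ε j) ≤ ‖x‖ := by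
  rcases (dset X ε j).eq_empty_or_nonempty with h | ⟨y, hy⟩
  · simp [h]
  have h0 : (0 : X) ∈ dset X ε j := by
    have := dset_convex ε j hy (dset_neg ε j y hy) (a := 1 / 2) (b := 1 / 2) (by norm_num)
      (by norm_num) (by norm_num)
    simpa using this
  simpa using infDist_le_dist_of_mem (x := x) h0

theorem defect (ε : ℝ) (hε : 0 < ε) (N : ℕ) (hN : dset X ε N = ∅) (x y : X) (hx : ‖x‖ ≤ 1)
    (hy : ‖y‖ ≤ 1) (hxy : 3 * ε ≤ ‖x - y‖) :
    ∃ j ≤ N, ε / 4 ^ N < (infDist x (dset X ε j) + infDist y (dset X ε j)) / 2 -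
      infDist ((1 / 2 : ℝ) • (x + y)) (dset X ε j) := by
  by_contra hcon
  push Not at hcon
  set η := ε / 4 ^ N with hη
  have hη0 : 0 < η := by positivity
  have key : ∀ j ≤ N, (dset X ε j).Nonempty ∧ infDist x (dset X ε j) < 4 ^ j * η ∧
      infDist y (dset X ε j) < 4 ^ j * η := by
    intro j
    induction j with
    | zero =>
      intro _
      have h1 : x ∈ dset X ε 0 := by simpa [dset] using hx
      have h2 : y ∈ dset X ε 0 := by simpa [dset] using hy
      exact ⟨⟨x, h1⟩, by simpa [infDist_zero_of_mem h1] using hη0,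
        by simpa [infDist_zero_of_mem h2] using hη0⟩
    | succ j ih =>
      intro hj
      obtain ⟨hne, h1, h2⟩ := ih (by omega)
      obtain ⟨x', hx', h3⟩ := (infDist_lt_iff hne).1 h1
      obtain ⟨y', hy', h4⟩ := (infDist_lt_iff hne).1 h2
      have h5 : (4 : ℝ) ^ j * η ≤ ε := by
        have : (4 : ℝ) ^ j ≤ 4 ^ N := pow_le_pow_right₀ (by norm_num) (by omega)
        calc (4 : ℝ) ^ j * η ≤ 4 ^ N * η := mul_le_mul_of_nonneg_right this hη0.le
          _ = ε := by rw [hη]; field_simp
      have h6 : η ≤ 4 ^ j * η := le_mul_of_one_le_left hη0.le (one_le_pow₀ (by norm_num))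
      rw [dist_eq_norm] at h3 h4
      have h7 : ε ≤ ‖x' - y'‖ := by
        have e : x - y = (x - x') + (x' - y') - (y - y') := by abel
        have := norm_sub_le ((x - x') + (x' - y')) (y - y')
        have := norm_add_le (x - x') (x' - y')
        rw [e] at hxy
        linarith
      have hm : (1 / 2 : ℝ) • (x' + y') ∈ dset X ε (j + 1) :=
        subset_convexHull _ _ ⟨x', hx', y', hy', h7, rfl⟩
      have h8 : infDist ((1 / 2 : ℝ) • (x + y)) (dset X ε (j + 1)) < 4 ^ j * η := by
        refine (infDist_le_dist_of_mem hm).trans_lt ?_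
        rw [dist_eq_norm, ← smul_sub, norm_smul, show x + y - (x' + y') = (x - x') + (y - y') by abel]
        have := norm_add_le (x - x') (y - y')
        rw [Real.norm_of_nonneg (by norm_num)]
        linarith
      have h9 := hcon (j + 1) hj
      have h10 : 0 ≤ infDist x (dset X ε (j + 1)) := infDist_nonneg
      have h11 : 0 ≤ infDist y (dset X ε (j + 1)) := infDist_nonneg
      refine ⟨⟨_, hm⟩, ?_, ?_⟩ <;> rw [pow_succ] <;> linarith
  have := (key N le_rfl).1
  rw [hN] at this
  exact Set.not_nonempty_empty this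

theorem renorm (h : ∀ ε : ℝ, 0 < ε → ∃ N, dset X ε N = ∅) : HasEquivUniformlyConvexNorm X := by
  let d : ℕ → X → ℝ := fun n x => infDist x (dset X (1 / ((n.unpair.1 : ℝ) + 1)) n.unpair.2)
  let c : ℕ → ℝ := fun n => 1 / 2 / 2 ^ n
  have hc0 : ∀ n, 0 < c n := fun n => by positivity
  have hc : HasSum c 1 := hasSum_geometric_two' 1
  have hd0 : ∀ n x, 0 ≤ d n x := fun n x => infDist_nonneg
  have hd1 : ∀ n x, d n x ≤ ‖x‖ := fun n x => infDist_dset_le _ _ x
  have hs : ∀ x, Summable fun n => c n * d n x := fun x =>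
    Summable.of_nonneg_of_le (fun n => mul_nonneg (hc0 n).le (hd0 n x))
      (fun n => mul_le_mul_of_nonneg_left (hd1 n x) (hc0 n).le) (hc.summable.mul_right _)
  let F : X → ℝ := fun x => ‖x‖ + ∑' n, c n * d n x
  have hF1 : ∀ x, ‖x‖ ≤ F x := fun x =>
    le_add_of_nonneg_right (tsum_nonneg fun n => mul_nonneg (hc0 n).le (hd0 n x))
  have hlip : ∀ x y, F x ≤ F y + 2 * ‖x - y‖ := by
    intro x y
    have h1 : ∑' n, c n * d n x ≤ ∑' n, c n * d n y + ‖x - y‖ := by
      have h2 := ((hs y).hasSum.add (hc.mul_right ‖x - y‖))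
      rw [one_mul] at h2
      refine hasSum_le (fun n => ?_) (hs x).hasSum h2
      rw [← mul_add, ← dist_eq_norm]
      exact mul_le_mul_of_nonneg_left infDist_le_infDist_add_dist (hc0 n).le
    have h3 := norm_sub_norm_le x y
    simp only [F]; linarith
  have hF0 : F 0 = 0 := by
    have : ∀ n, d n 0 = 0 := fun n => le_antisymm (by simpa using hd1 n 0) (hd0 n 0)
    simp [F, this]
  have hF2 : ∀ x, F x ≤ 2 * ‖x‖ := fun x => by simpa [hF0] using hlip x 0
  have hconv : ∀ (x y : X) (a b : ℝ), 0 ≤ a → 0 ≤ b → a + b = 1 → ∀ n,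
      F (a • x + b • y) + c n * (a * d n x + b * d n y - d n (a • x + b • y)) ≤
        a * F x + b * F y := by
    intro x y a b ha hb hab n
    have h1 : ‖a • x + b • y‖ ≤ a * ‖x‖ + b * ‖y‖ := by
      refine (norm_add_le _ _).trans ?_
      rw [norm_smul, norm_smul, Real.norm_of_nonneg ha, Real.norm_of_nonneg hb]
    have h2 := (((hs x).hasSum.mul_left a).add ((hs y).hasSum.mul_left b)).sub
      (hs (a • x + b • y)).hasSum
    have h3 := le_hasSum h2 n (fun i _ => by
      have := mul_le_mul_of_nonneg_left (infDist_convex (dset_convex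
        (X := X) (1 / ((i.unpair.1 : ℝ) + 1)) i.unpair.2) x y ha hb hab) (hc0 i).le
      simp only [d]; linarith)
    simp only [F]; linarith
  have hneg : ∀ x, F (-x) ≤ F x := by
    intro x
    have := (hs (-x)).tsum_le_tsum (fun n => mul_le_mul_of_nonneg_left
      (infDist_dset_neg _ _ x) (hc0 n).le) (hs x)
    simp only [F, norm_neg]; linarith
  let L : Set X := {x | F x ≤ 1}
  have hLc : Convex ℝ L := by
    intro x hx y hy a b ha hb hab
    have h1 := hconv x y a b ha hb hab 0
    have h2 := mul_le_mul_of_nonneg_left (infDist_convex (dset_convex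
        (X := X) (1 / (((0 : ℕ).unpair.1 : ℝ) + 1)) (0 : ℕ).unpair.2) x y ha hb hab) (hc0 0).le
    have h3 := mul_le_mul_of_nonneg_left (show F x ≤ 1 from hx) ha
    have h4 := mul_le_mul_of_nonneg_left (show F y ≤ 1 from hy) hb
    change F _ ≤ 1
    simp only [d] at h1
    linarith
  have hLb : Balanced ℝ L := (balanced_iff_neg_mem hLc).2 fun x hx => (hneg x).trans hx
  have hL1 : closedBall (0 : X) (1 / 2) ⊆ L := by
    intro x hx
    rw [mem_closedBall_zero_iff] at hx
    exact (hF2 x).trans (by linarith)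
  have hL2 : L ⊆ closedBall (0 : X) 1 := fun x hx => mem_closedBall_zero_iff.2 ((hF1 x).trans hx)
  have hLn : L ∈ nhds (0 : X) := Filter.mem_of_superset (closedBall_mem_nhds _ (by norm_num)) hL1
  have hLa : Absorbent ℝ L := absorbent_nhds_zero hLn
  have hFc : Continuous F := by
    refine (LipschitzWith.of_dist_le_mul (K := 2) fun x y => ?_).continuous
    rw [Real.dist_eq, dist_eq_norm, abs_le]
    have h1 := hlip x y
    have h2 := hlip y x
    rw [norm_sub_rev] at h2
    push_cast
    constructor <;> linarith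
  have hLcl : IsClosed L := isClosed_le hFc continuous_const
  have hN2 : ∀ x, gauge L x ≤ 2 * ‖x‖ := by
    intro x
    have := gauge_mono (absorbent_nhds_zero (closedBall_mem_nhds (0 : X)
      (show (0 : ℝ) < 1 / 2 by norm_num))) hL1 x
    rw [gauge_closedBall (by norm_num)] at this
    linarith
  refine ⟨gaugeSeminorm hLb hLc hLa, 1, 2, one_pos, two_pos, fun x => ⟨?_, hN2 x⟩, ?_⟩
  · have := gauge_mono hLa hL2 x
    rw [gauge_closedBall zero_le_one] at this
    simpa using this
  · intro ε hε _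
    obtain ⟨k, hk⟩ := exists_nat_one_div_lt (show 0 < ε / 6 by linarith)
    have hk0 : (0 : ℝ) < 1 / ((k : ℝ) + 1) := by positivity
    obtain ⟨N, hN⟩ := h _ hk0
    obtain ⟨j₀, -, hj₀⟩ := exists_min_image (range (N + 1)) (fun j => c (Nat.pair k j)) (by simp)
    set δ₀ := c (Nat.pair k j₀) * (1 / ((k : ℝ) + 1) / 4 ^ N) with hδ₀
    have hδ₀0 : 0 < δ₀ := mul_pos (hc0 _) (by positivity)
    refine ⟨1 - 1 / (1 + δ₀ / 2), ?_, fun x y hx hy hxy => ?_⟩
    · rw [sub_pos, div_lt_one (by linarith)]; linarith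
    simp only [gaugeSeminorm_toFun] at hx hy hxy ⊢
    rw [gauge_le_one_iff_mem_closure hLc hLn, hLcl.closure_eq] at hx hy
    have hx1 : ‖x‖ ≤ 1 := (hF1 x).trans hx
    have hy1 : ‖y‖ ≤ 1 := (hF1 y).trans hy
    obtain ⟨j, hj, hdef⟩ := defect _ hk0 N hN x y hx1 hy1 (by linarith [hN2 (x - y)])
    have h1 := hconv x y (1 / 2) (1 / 2) (by norm_num) (by norm_num) (by norm_num) (Nat.pair k j)
    rw [← smul_add] at h1
    simp only [d, Nat.unpair_pair] at h1
    set m := (1 / 2 : ℝ) • (x + y) with hm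
    have h2 : δ₀ ≤ c (Nat.pair k j) * (1 / 2 * infDist x (dset X (1 / ((k : ℝ) + 1)) j) +
        1 / 2 * infDist y (dset X (1 / ((k : ℝ) + 1)) j) -
        infDist m (dset X (1 / ((k : ℝ) + 1)) j)) :=
      mul_le_mul (hj₀ j (mem_range.2 (by omega))) (by linarith) (by positivity) (hc0 _).le
    have h3 : F m ≤ 1 - δ₀ := by
      have h4 : F x ≤ 1 := hx
      have h5 : F y ≤ 1 := hy
      linarith
    have hm1 : ‖m‖ ≤ 1 := (hF1 m).trans (by linarith)
    have h6 : (1 + δ₀ / 2) • m ∈ L := by
      have h7 := hlip ((1 + δ₀ / 2) • m) m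
      rw [add_smul, one_smul, add_sub_cancel_left, norm_smul,
        Real.norm_of_nonneg (by linarith)] at h7
      change F _ ≤ 1
      rw [add_smul, one_smul]
      nlinarith
    rw [sub_sub_cancel]
    apply gauge_le_of_mem (by positivity)
    refine ⟨_, h6, ?_⟩
    simp only [smul_smul]
    rw [one_div, inv_mul_cancel₀ (by linarith), one_smul]

end Crest.Agent.R140
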